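import Mathlib

/-! Definitions for the continuum pair-potential model. -/

namespace Vale.Agent.P171

open MeasureTheory

/-- Euclidean three-space. -/
abbrev Pt : Type := EuclideanSpace ℝ (Fin 3)

/-- The energy `U_N(x) = ∑_{i<j} φ(|x_i - x_j|)`. -/
noncomputable def energy (φ : ℝ → ℝ) {N : ℕ} (x : Fin N → Pt) : ℝ :=
  ∑ i : Fin N, ∑ j : Fin N, if i < j then φ ‖x i - x j‖ else 0

/-- Locally bounded on `(0, ∞)`. -/
def LocBdd (φ : ℝ → ℝ) : Prop :=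
  ∀ a b : ℝ, 0 < a → ∃ M : ℝ, ∀ r ∈ Set.Icc a b, |φ r| ≤ M

/-- Stability. -/
def Stable (φ : ℝ → ℝ) : Prop :=
  ∃ B : ℝ, ∀ (N : ℕ) (x : Fin N → Pt), Function.Injective x → -(B * N) ≤ energy φ x

/-- Temperedness. -/
def Tempered (φ : ℝ → ℝ) : Prop :=
  ∃ C ε R₀ : ℝ, 0 < C ∧ 0 < ε ∧ 0 < R₀ ∧ ∀ r : ℝ, R₀ ≤ r → φ r ≤ C * r ^ (-3 - ε)

/-- The cube `[0, L]^3`. -/
def box (L : ℝ) : Set Pt := {x | ∀ a : Fin 3, x a ∈ Set.Icc 0 L}

/-- The Boltzmann weight `exp (-β U_N)`. -/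
noncomputable def boltz (φ : ℝ → ℝ) (β : ℝ) (N : ℕ) (x : Fin N → Pt) : ℝ :=
  Real.exp (-β * energy φ x)

/-- The canonical partition function `Z_{L,N}(β)`. -/
noncomputable def canon (φ : ℝ → ℝ) (β L : ℝ) (N : ℕ) : ℝ :=
  (1 / (N.factorial : ℝ)) * ∫ x in Set.univ.pi (fun _ : Fin N => box L), boltz φ β N x

/-- The grand canonical partition function `∑_N z^N Z_{L,N}(β)`. -/
noncomputable def grand (φ : ℝ → ℝ) (β z L : ℝ) : ℝ :=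
  ∑' N : ℕ, z ^ N * canon φ β L N

end Vale.Agent.P171
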