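import Vale.Agent.P171.Upper

/-! The variational argument producing a point of non-differentiability. -/

namespace Vale.Agent.P171

open MeasureTheory Classical Filter Topology
open scoped ENNReal NNReal Nat

lemma Adm.PP_mono {t : ℕ → ℝ} (ht : Adm t) {A : ℝ} (hA : 125 * nm t ≤ A) {ν ν' : ℝ}
    (h : ν ≤ ν') : PP A t ν ≤ PP A t ν' := by
  refine PP_le fun L hL => lg_le (le_trans ?_ (ht.ZZ_le_PP hA ν' hL))
  refine Xi_mono (measurableSet_box _) fun s _ =>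
    ENNReal.ofReal_le_ofReal (Real.exp_le_exp.2 ?_)
  simp only [XX]
  nlinarith [Nat.cast_nonneg (α := ℝ) (Multiset.card s)]

lemma WW_le_add {t u : ℕ → ℝ} (ht : Adm t) (hu : Adm u) (h : ∀ j, u j ≤ t j) (s : Multiset Pt) :
    WW t s ≤ WW u s + (nm t - nm u) * (Multiset.card s : ℝ) ^ 2 := by
  rw [← ps_one, ← ps_mul, WW, WW, ← ps_add]
  refine ps_mono fun x _ y _ => ?_
  have h1 := hasSum_le (fun j => ?_) ((ht.summable_ker (dist x y)).hasSum.sub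
    (hu.summable_ker (dist x y)).hasSum) (ht.2.hasSum.sub hu.2.hasSum)
  · simp only [psi, nm]; linarith
  · rw [← sub_mul]; exact mul_le_of_le_one_right (sub_nonneg.2 (h j)) (ker_le_one _ _)

lemma PP_lsc {t : ℕ → ℝ} (ht : Adm t) {A ν c : ℝ} (hA : 125 * nm t ≤ A) {u : ℕ → ℕ → ℝ}
    (hu : ∀ n, Adm (u n)) (hut : ∀ n j, u n j ≤ t j) (hn : Tendsto (fun n => nm (u n)) atTop (𝓝 (nm t)))
    {d : ℕ → ℝ} (hd : Tendsto d atTop (𝓝 c)) (h : ∀ n, PP A (u n) ν ≤ d n) : PP A t ν ≤ c := by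
  refine PP_le fun L hL => lg_le ?_
  rw [ZZ, Xi, ENNReal.tsum_eq_iSup_nat]
  refine iSup_le fun M => ?_
  have hnm : ∀ n, nm (u n) ≤ nm t := fun n => (hu n).2.tsum_le_tsum (hut n) ht.2
  have h1 : Tendsto (fun n => ENNReal.ofReal (Real.exp ((nm t - nm (u n)) * (M:ℝ) ^ 2 +
      d n * (L + 2) ^ 3))) atTop
      (𝓝 (ENNReal.ofReal (Real.exp ((nm t - nm t) * (M:ℝ) ^ 2 + c * (L + 2) ^ 3)))) :=
    ENNReal.tendsto_ofReal ((Real.continuous_exp.tendsto _).comp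
      (((tendsto_const_nhds.sub hn).mul_const _).add (hd.mul_const _)))
  rw [sub_self, zero_mul, zero_add] at h1
  refine ge_of_tendsto' h1 fun n => ?_
  have hA' : 125 * nm (u n) ≤ A := by linarith [hnm n]
  calc _ ≤ ∑ N ∈ Finset.range M, ((N ! : ℝ≥0∞))⁻¹ * II (box L)
        (fun s => ENNReal.ofReal (Real.exp ((nm t - nm (u n)) * (M:ℝ) ^ 2)) * FF A (u n) ν s) N := by
        refine Finset.sum_le_sum fun N hN => mul_le_mul_right
          (II_mono (measurableSet_box L) N fun s hs _ => exp_le_mul ?_) _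
        have h2 := WW_le_add ht (hu n) (hut n) s
        have h3 : (Multiset.card s : ℝ) ^ 2 ≤ (M:ℝ) ^ 2 := by
          have : Multiset.card s ≤ M := by rw [hs]; exact (Finset.mem_range.1 hN).le
          gcongr
        have h4 := mul_le_mul_of_nonneg_left h3 (sub_nonneg.2 (hnm n))
        simp only [XX]; linarith
    _ ≤ Xi (box L) (fun s => ENNReal.ofReal (Real.exp ((nm t - nm (u n)) * (M:ℝ) ^ 2))
        * FF A (u n) ν s) := ENNReal.sum_le_tsum _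
    _ ≤ _ := by
        rw [Xi_const_mul _ _ ((hu n).meas_FF A ν), Real.exp_add,
          ENNReal.ofReal_mul (Real.exp_pos _).le]
        refine mul_le_mul_right (((hu n).ZZ_le_PP hA' ν hL).trans ?_) _
        exact ENNReal.ofReal_le_ofReal (Real.exp_le_exp.2
          (mul_le_mul_of_nonneg_right (h n) (by positivity)))

lemma deriv_step {f : ℝ → ℝ} {ν b : ℝ} (hb : 0 < b) (hf : DifferentiableAt ℝ f ν)
    (h : ∀ u, 0 ≤ u → f ν - b * u ≤ f (ν - u)) : ∃ u, 0 < u ∧ f (ν + u) ≤ f ν + 3 / 2 * b * u := by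
  have h1 := hf.hasDerivAt.isLittleO.def (show 0 < b / 4 by positivity)
  obtain ⟨ε, hε, h2⟩ := Metric.eventually_nhds_iff.1 h1
  refine ⟨ε / 2, by positivity, ?_⟩
  have h3 := h2 (y := ν + ε / 2) (by rw [Real.dist_eq, add_sub_cancel_left, abs_of_pos] <;> linarith)
  have h4 := h2 (y := ν - ε / 2) (by
    rw [Real.dist_eq, sub_sub_cancel_left, abs_neg, abs_of_pos] <;> linarith)
  simp only [add_sub_cancel_left, sub_sub_cancel_left, Real.norm_eq_abs, smul_eq_mul, abs_neg,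
    abs_of_pos (show 0 < ε / 2 by positivity)] at h3 h4
  have h5 := h (ε / 2) (by positivity)
  linarith [(abs_le.1 h3).2, (abs_le.1 h4).2]

lemma Adm.not_diff {t : ℕ → ℝ} (ht : Adm t) {A ν α b : ℝ} (hA : 250 * nm t + 27001 ≤ A)
    (hb : 0 < b) (hα : 108 * b ^ 2 < α)
    (h1 : ∀ j σ, 0 ≤ σ → σ ≤ 1 → PP A t ν + α * σ ≤ PP A (P171.bump t j σ) ν)
    (h2 : ∀ u, 0 ≤ u → PP A t ν - b * u ≤ PP A t (ν - u)) : ¬ DifferentiableAt ℝ (PP A t) ν := by
  intro hf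
  obtain ⟨h, hh, h3⟩ := deriv_step hb hf h2
  set K := Real.exp (ν + A) with hK
  have hK0 : 0 < K := Real.exp_pos _
  set σ := min 1 (b * h / 2 / (27000 * K)) with hσ
  have hσ0 : 0 < σ := lt_min one_pos (by positivity)
  have hσ1 : σ ≤ 1 := min_le_left _ _
  have hσ2 : 27000 * σ * K ≤ b * h / 2 := by
    have : σ ≤ b * h / 2 / (27000 * K) := min_le_right _ _
    rw [le_div_iff₀ (by positivity)] at this; linarith
  set p := PP A t ν
  set p' := PP A t (ν + h)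
  have hp : 0 ≤ p := PP_nonneg _ _ _
  have hn := ht.nm_nonneg
  have hpp : p ≤ p' := ht.PP_mono (by linarith) (by linarith)
  have key : ∀ j : ℕ, p + α * σ ≤ p + 108 * b ^ 2 * σ + del t (j + 1) * K +
      p' * ((((j + 1 : ℕ) : ℝ) + 2) ^ 3 / ((j + 1 : ℕ) : ℝ) ^ 3 - 1)
        + 2 / ((j + 1 : ℕ) : ℝ) ^ 3 := by
    intro j
    have hl : (0:ℝ) < ((j + 1 : ℕ) : ℝ) ^ 3 := by positivity
    have hl2 : ((j + 1 : ℕ) : ℝ) ^ 3 ≤ (((j + 1 : ℕ) : ℝ) + 2) ^ 3 := by gcongr; linarith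
    have hd := ht.del_nonneg (j + 1)
    have := ht.PP_bump_le (A := A) (ν := ν) (ρ := 2 * b) hσ0.le hh.le (by linarith) j
      (γ := (p + 108 * b ^ 2 * σ + del t (j + 1) * K) * ((j + 1 : ℕ) : ℝ) ^ 3 +
        p' * ((((j + 1 : ℕ) : ℝ) + 2) ^ 3 - ((j + 1 : ℕ) : ℝ) ^ 3))
      (add_nonneg (by positivity) (mul_nonneg (by linarith) (by linarith)))
      (by
        have := mul_le_mul_of_nonneg_right hpp (sub_nonneg.2 hl2)
        nlinarith)
      (by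
        have h4 : 27000 * σ * K - h * (2 * b) + p' ≤ p + 108 * b ^ 2 * σ := by
          have : 0 ≤ 108 * b ^ 2 * σ := by positivity
          linarith
        have := mul_le_mul_of_nonneg_right h4 hl.le
        nlinarith)
    refine (h1 j σ hσ0.le hσ1).trans (this.trans (le_of_eq ?_))
    field_simp
  have hj : Tendsto (fun j : ℕ => ((j + 1 : ℕ) : ℝ)) atTop atTop :=
    tendsto_natCast_atTop_atTop.comp (tendsto_add_atTop_nat 1)
  have hlim : Tendsto (fun j : ℕ => p + 108 * b ^ 2 * σ + del t (j + 1) * K +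
      p' * ((((j + 1 : ℕ) : ℝ) + 2) ^ 3 / ((j + 1 : ℕ) : ℝ) ^ 3 - 1)
        + 2 / ((j + 1 : ℕ) : ℝ) ^ 3) atTop
      (𝓝 (p + 108 * b ^ 2 * σ + 0 * K + p' * (1 - 1) + 0)) :=
    ((tendsto_const_nhds.add ((ht.tendsto_del.comp (tendsto_add_atTop_nat 1)).mul_const K)).add
      ((((tendsto_cube 2).comp hj).sub_const 1).const_mul p')).add
      (tendsto_const_nhds.div_atTop ((tendsto_pow_atTop (by norm_num)).comp hj))
  have := ge_of_tendsto' hlim key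
  nlinarith

lemma brezis_browder {X : Type*} (r : X → X → Prop) (Ψ : X → ℝ) (x₀ : X) (C : ℝ)
    (h0 : r x₀ x₀) (hrefl : ∀ x, r x₀ x → r x x) (htrans : ∀ x y z, r x y → r y z → r x z)
    (hΨ : ∀ x y, r x y → Ψ y ≤ Ψ x) (hC : ∀ x, r x₀ x → C ≤ Ψ x)
    (hub : ∀ x : ℕ → X, (∀ n, r x₀ (x n)) → (∀ n, r (x n) (x (n + 1))) → ∃ y, ∀ n, r (x n) y) :
    ∃ y, r x₀ y ∧ ∀ z, r y z → Ψ y ≤ Ψ z := by
  have step : ∀ (n : ℕ) (x : {x // r x₀ x}), ∃ y : {x // r x₀ x}, r x y ∧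
      ∀ z, r x z → Ψ y ≤ Ψ z + 1 / ((n:ℝ) + 1) := by
    intro n x
    have hne : (Ψ '' {z | r x z}).Nonempty := ⟨_, x, hrefl x x.2, rfl⟩
    have hbd : BddBelow (Ψ '' {z | r x z}) :=
      ⟨C, by rintro _ ⟨z, hz, rfl⟩; exact hC z (htrans _ _ _ x.2 hz)⟩
    obtain ⟨_, ⟨y, hy, rfl⟩, h⟩ := exists_lt_of_csInf_lt hne
      (lt_add_of_pos_right _ (show 0 < 1 / ((n:ℝ) + 1) by positivity))
    refine ⟨⟨y, htrans _ _ _ x.2 hy⟩, hy, fun z hz => ?_⟩
    have := csInf_le hbd ⟨z, hz, rfl⟩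
    linarith
  choose f hf using step
  let x : ℕ → {x // r x₀ x} := fun n => Nat.rec ⟨x₀, h0⟩ (fun n y => f n y) n
  obtain ⟨y, hy⟩ := hub (fun n => (x n).1) (fun n => (x n).2) (fun n => (hf n (x n)).1)
  refine ⟨y, hy 0, fun z hz => ?_⟩
  have h1 : Tendsto (fun n : ℕ => Ψ z + 1 / ((n:ℝ) + 1)) atTop (𝓝 (Ψ z + 0)) :=
    tendsto_const_nhds.add tendsto_one_div_add_atTop_nhds_zero_nat
  rw [add_zero] at h1
  refine ge_of_tendsto' h1 fun n => ?_
  exact (hΨ _ _ (hy (n + 1))).trans ((hf n (x n)).2 z (htrans _ _ _ (hy n) hz))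

noncomputable def Psi (x : (ℕ → ℝ) × ℝ) : ℝ :=
  PP (2 ^ 35) x.1 x.2 - (1 / 2 ^ 23) * nm x.1 - (1 / 2 ^ 15) * x.2

def Rel (x y : (ℕ → ℝ) × ℝ) : Prop :=
  Adm y.1 ∧ nm y.1 ≤ 2 ^ 25 ∧ (∀ j, x.1 j ≤ y.1 j) ∧ y.2 ≤ x.2 ∧ Psi y ≤ Psi x

lemma adm_zero : Adm 0 := ⟨fun _ => le_rfl, summable_zero⟩

lemma Psi_zero : Psi (0, 0) ≤ 1 := by
  have := adm_zero.PP_le_exp (A := 2 ^ 35) (by simp [nm]) 0
  simpa [Psi, nm] using this

lemma Psi_ge {x : (ℕ → ℝ) × ℝ} (h : Rel (0, 0) x) :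
    (1 / 2 ^ 23) * nm x.1 - (1 / 2 ^ 16) * x.2 - 1 ≤ Psi x := by
  obtain ⟨h1, h2, -, h3, -⟩ := h
  have h4 := h1.trial_PP (A := 2 ^ 35) (by linarith) x.2
  have h5 := PP_nonneg (2 ^ 35) x.1 x.2
  rw [Psi]
  generalize PP (2 ^ 35) x.1 x.2 = p at *
  linarith

lemma Rel_ub (x : ℕ → (ℕ → ℝ) × ℝ) (h0 : ∀ n, Rel (0, 0) (x n)) (h : ∀ n, Rel (x n) (x (n + 1))) :
    ∃ y, ∀ n, Rel (x n) y := by
  have ha : ∀ n, Adm (x n).1 := fun n => (h0 n).1
  have hm : ∀ j, Monotone fun n => (x n).1 j := fun j =>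
    monotone_nat_of_le_succ fun n => (h n).2.2.1 j
  have hb : ∀ j, BddAbove (Set.range fun n => (x n).1 j) := fun j => ⟨2 ^ 25, by
    rintro _ ⟨n, rfl⟩
    exact ((ha n).2.le_tsum j fun i _ => (ha n).1 i).trans (h0 n).2.1⟩
  have hν : Antitone fun n => (x n).2 := antitone_nat_of_succ_le fun n => (h n).2.2.2.1
  have hΨ : Antitone fun n => Psi (x n) := antitone_nat_of_succ_le fun n => (h n).2.2.2.2
  have hνb : BddBelow (Set.range fun n => (x n).2) := ⟨-2 ^ 17, by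
    rintro _ ⟨n, rfl⟩
    have := Psi_ge (h0 n)
    have := (h0 n).2.2.2.2
    have := Psi_zero
    have := (ha n).nm_nonneg
    linarith⟩
  set t : ℕ → ℝ := fun j => ⨆ n, (x n).1 j
  set ν : ℝ := ⨅ n, (x n).2
  have ht1 : ∀ j, Tendsto (fun n => (x n).1 j) atTop (𝓝 (t j)) := fun j =>
    tendsto_atTop_ciSup (hm j) (hb j)
  have hν1 : Tendsto (fun n => (x n).2) atTop (𝓝 ν) := tendsto_atTop_ciInf hν hνb
  have hle : ∀ n j, (x n).1 j ≤ t j := fun n j => le_ciSup (hb j) n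
  have hνle : ∀ n, ν ≤ (x n).2 := fun n => ciInf_le hνb n
  have ht0 : ∀ j, 0 ≤ t j := fun j => ((ha 0).1 j).trans (hle 0 j)
  have hsum : ∀ u : Finset ℕ, ∑ j ∈ u, t j ≤ 2 ^ 25 := fun u =>
    le_of_tendsto' (tendsto_finsetSum u fun j _ => ht1 j) fun n =>
      ((ha n).2.sum_le_tsum u fun i _ => (ha n).1 i).trans (h0 n).2.1
  have ht : Adm t := ⟨ht0, summable_of_sum_le ht0 hsum⟩
  have htn : nm t ≤ 2 ^ 25 := ht.2.tsum_le_of_sum_le hsum
  have hn : Tendsto (fun n => nm (x n).1) atTop (𝓝 (nm t)) :=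
    tendsto_tsum_of_dominated_convergence ht.2 ht1 (Eventually.of_forall fun n j => by
      rw [Real.norm_of_nonneg ((ha n).1 j)]; exact hle n j)
  refine ⟨(t, ν), fun n => ⟨ht, htn, hle n, hνle n, ?_⟩⟩
  have hs := tendsto_add_atTop_nat n
  have := PP_lsc ht (A := 2 ^ 35) (ν := ν) (by linarith) (u := fun m => (x (m + n)).1)
    (fun m => ha _) (fun m => hle _) (hn.comp hs)
    (d := fun m => Psi (x n) + (1 / 2 ^ 23) * nm (x (m + n)).1 + (1 / 2 ^ 15) * (x (m + n)).2)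
    ((tendsto_const_nhds.add ((hn.comp hs).const_mul _)).add ((hν1.comp hs).const_mul _))
    fun m => by
      have h1 := (ha (m + n)).PP_mono (A := 2 ^ 35) (by linarith [(h0 (m + n)).2.1]) (hνle (m + n))
      have h2 : Psi (x (m + n)) ≤ Psi (x n) := hΨ (Nat.le_add_left n m)
      rw [Psi] at h2
      generalize PP (2 ^ 35) (x (m + n)).1 (x (m + n)).2 = p at *
      generalize PP (2 ^ 35) (x (m + n)).1 ν = q at *
      linarith
  rw [Psi]; linarith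

theorem exists_not_diff : ∃ (A : ℝ) (t : ℕ → ℝ) (ν : ℝ), Adm t ∧ 125 * nm t ≤ A ∧
    ¬ DifferentiableAt ℝ (PP A t) ν := by
  obtain ⟨y, hy, h⟩ := brezis_browder Rel Psi (0, 0) (-1)
    ⟨adm_zero, by simp [nm], fun _ => le_rfl, le_rfl, le_rfl⟩
    (fun x hx => ⟨hx.1, hx.2.1, fun _ => le_rfl, le_rfl, le_rfl⟩)
    (fun x y z h1 h2 => ⟨h2.1, h2.2.1, fun j => (h1.2.2.1 j).trans (h2.2.2.1 j),
      h2.2.2.2.1.trans h1.2.2.2.1, h2.2.2.2.2.trans h1.2.2.2.2⟩)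
    (fun x y h => h.2.2.2.2)
    (fun x hx => by
      have := Psi_ge hx
      have := hx.1.nm_nonneg
      have : x.2 ≤ 0 := hx.2.2.2.1
      linarith) Rel_ub
  have ha := hy.1
  have hn : nm y.1 ≤ 2 ^ 24 := by
    have := Psi_ge hy
    have := hy.2.2.2.2
    have := Psi_zero
    have : y.2 ≤ 0 := hy.2.2.2.1
    linarith
  have key : ∀ z : (ℕ → ℝ) × ℝ, Adm z.1 → nm z.1 ≤ 2 ^ 25 → (∀ j, y.1 j ≤ z.1 j) → z.2 ≤ y.2 →
      Psi y ≤ Psi z := fun z h1 h2 h3 h4 => by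
    rcases le_total (Psi y) (Psi z) with h5 | h5
    · exact h5
    · exact h z ⟨h1, h2, h3, h4, h5⟩
  refine ⟨2 ^ 35, y.1, y.2, ha, by linarith, ha.not_diff (α := 1 / 2 ^ 23) (b := 1 / 2 ^ 15)
    (by linarith) (by norm_num) (by norm_num) (fun j σ h0 h1 => ?_) (fun u hu => ?_)⟩
  · have := key (bump y.1 j σ, y.2) (ha.bump j h0) (by rw [ha.nm_bump]; linarith)
      (fun i => le_add_of_nonneg_right (by split_ifs <;> simp [h0])) le_rfl
    simp only [Psi, ha.nm_bump] at this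
    linarith
  · have := key (y.1, y.2 - u) ha (by linarith) (fun _ => le_rfl) (by simp [hu])
    simp only [Psi] at this
    linarith

end Vale.Agent.P171
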