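import Vale.Agent.P171.Ekeland

/-! Translation to the pair-potential formulation. -/

namespace Vale.Agent.P171

open MeasureTheory Classical Filter Topology
open scoped ENNReal NNReal Nat

noncomputable def pot (A : ℝ) (t : ℕ → ℝ) (r : ℝ) : ℝ := 2 * (A * ind (r ≤ 1) - psi t r)

lemma sum_sum_symm {N : ℕ} (g : Fin N → Fin N → ℝ) (hg : ∀ i j, g i j = g j i) :
    ∑ i, ∑ j, g i j = 2 * (∑ i, ∑ j, if i < j then g i j else 0) + ∑ i, g i i := by
  have h1 : ∀ i j, g i j = ((if i < j then g i j else 0) + (if j < i then g j i else 0))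
      + if i = j then g i i else 0 := by
    intro i j
    rcases lt_trichotomy i j with h | h | h
    · simp [h, h.ne, h.le]
    · simp [h]
    · simp [h, h.ne', h.le, hg i j]
  rw [Finset.sum_congr rfl fun i _ => Finset.sum_congr rfl fun j _ => h1 i j]
  simp only [Finset.sum_add_distrib, Finset.sum_ite_eq, Finset.mem_univ, if_true]
  rw [Finset.sum_comm (f := fun i j => if j < i then g j i else 0)]
  ring

lemma XX_ms (A : ℝ) (t : ℕ → ℝ) (ν : ℝ) {N : ℕ} (x : Fin N → Pt) :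
    XX A t ν (ms x) = (ν + psi t 0) * N - energy (pot A t) x := by
  have h1 : A * DD 1 (ms x) - WW t (ms x) =
      ∑ i, ∑ j, (A * ind (dist (x i) (x j) ≤ 1) - psi t (dist (x i) (x j))) := by
    simp only [DD, WW, ps_ms, Finset.sum_sub_distrib, Finset.mul_sum]
  rw [sum_sum_symm _ fun i j => by rw [dist_comm]] at h1
  have h2 : energy (pot A t) x = 2 * ∑ i, ∑ j, if i < j then
      (A * ind (dist (x i) (x j) ≤ 1) - psi t (dist (x i) (x j))) else 0 := by
    simp only [energy, pot, Finset.mul_sum, mul_ite, mul_zero, dist_eq_norm]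
  simp only [dist_self, ind_pos (zero_le_one' ℝ), Finset.sum_const, Finset.card_univ,
    Fintype.card_fin, nsmul_eq_mul] at h1
  rw [XX, card_ms, h2]; linarith

lemma Adm.measurable_pot {t : ℕ → ℝ} (ht : Adm t) (A : ℝ) : Measurable (pot A t) :=
  (((measurable_ind_le 1).const_mul A).sub ht.psi_anti.measurable).const_mul 2

lemma Adm.locBdd {t : ℕ → ℝ} (ht : Adm t) {A : ℝ} (hA : 125 * nm t ≤ A) : LocBdd (pot A t) := by
  intro a b _
  refine ⟨2 * (A + nm t), fun r _ => ?_⟩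
  have h0 := ht.nm_nonneg
  have h1 := ht.psi_nonneg r
  have h2 := ht.psi_le r
  have h3 := ind_nonneg (r ≤ 1)
  have h4 := ind_le_one (r ≤ 1)
  rw [pot, abs_le]; constructor <;> nlinarith

lemma Adm.energy_ge {t : ℕ → ℝ} (ht : Adm t) {A : ℝ} (hA : 125 * nm t ≤ A) {N : ℕ}
    (x : Fin N → Pt) : -(125 * nm t * N) ≤ energy (pot A t) x := by
  have h1 := ht.XX_le hA 0 (ms x)
  rw [XX_ms, card_ms] at h1
  nlinarith [ht.psi_nonneg 0, Nat.cast_nonneg (α := ℝ) N]

lemma Adm.tempered {t : ℕ → ℝ} (ht : Adm t) (A : ℝ) : Tempered (pot A t) := by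
  refine ⟨1, 1, 2, one_pos, one_pos, two_pos, fun r hr => ?_⟩
  have : 0 ≤ r ^ (-3 - 1 : ℝ) := Real.rpow_nonneg (by linarith) _
  rw [pot, ind_neg (by linarith)]
  linarith [ht.psi_nonneg r]

lemma exp_XX {z : ℝ} (hz : 0 < z) (A : ℝ) (t : ℕ → ℝ) {N : ℕ} (x : Fin N → Pt) :
    Real.exp (XX A t (Real.log z - psi t 0) (ms x)) = z ^ N * boltz (pot A t) 1 N x := by
  rw [XX_ms, sub_add_cancel, Real.exp_sub, mul_comm, Real.exp_nat_mul, Real.exp_log hz, boltz,
    neg_mul, one_mul, Real.exp_neg, div_eq_mul_inv]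

lemma Adm.measurable_boltz {t : ℕ → ℝ} (ht : Adm t) (A : ℝ) (N : ℕ) :
    Measurable (boltz (pot A t) 1 N) := by
  have := Real.measurable_exp.comp (ht.measurable_XX A (Real.log 1 - psi t 0) N)
  convert this using 1
  funext x
  simp only [Function.comp, exp_XX one_pos, one_pow, one_mul]

lemma Adm.integrable_boltz {t : ℕ → ℝ} (ht : Adm t) {A : ℝ} (hA : 125 * nm t ≤ A) {L : ℝ}
    (hL : 0 ≤ L) (N : ℕ) :
    IntegrableOn (boltz (pot A t) 1 N) (Set.univ.pi fun _ : Fin N => box L) := by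
  refine Measure.integrableOn_of_bounded (M := Real.exp (125 * nm t * N)) ?_
    (ht.measurable_boltz A N).aestronglyMeasurable (Eventually.of_forall fun x => ?_)
  · rw [volume_pi_pi]
    exact ENNReal.prod_ne_top fun _ _ => by rw [volume_box hL]; exact ENNReal.ofReal_ne_top
  · rw [boltz, Real.norm_of_nonneg (Real.exp_pos _).le]
    exact Real.exp_le_exp.2 (by linarith [ht.energy_ge hA x])

lemma Adm.term_eq {t : ℕ → ℝ} (ht : Adm t) (A : ℝ) {z : ℝ} (hz : 0 < z) (L : ℝ) (N : ℕ) :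
    z ^ N * canon (pot A t) 1 L N =
      (((N ! : ℝ≥0∞))⁻¹ * II (box L) (FF A t (Real.log z - psi t 0)) N).toReal := by
  rw [canon, mul_left_comm, ← integral_const_mul, integral_eq_lintegral_of_nonneg_ae
    (f := fun x => z ^ N * boltz (pot A t) 1 N x) (Eventually.of_forall fun x => mul_nonneg (by positivity) (Real.exp_pos _).le)
    ((ht.measurable_boltz A N).const_mul _).aestronglyMeasurable]
  simp only [II, FF, exp_XX hz, ENNReal.toReal_mul, ENNReal.toReal_inv, ENNReal.toReal_natCast,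
    one_div]

lemma Adm.ZZ_ne_top {t : ℕ → ℝ} (ht : Adm t) {A : ℝ} (hA : 125 * nm t ≤ A) (ν : ℝ) {L : ℝ}
    (hL : 0 ≤ L) : ZZ A t ν L ≠ ⊤ :=
  ne_top_of_le_ne_top ENNReal.ofReal_ne_top (ht.ZZ_le hA ν hL)

lemma Adm.summable_grand {t : ℕ → ℝ} (ht : Adm t) {A : ℝ} (hA : 125 * nm t ≤ A) {z : ℝ}
    (hz : 0 < z) {L : ℝ} (hL : 0 ≤ L) : Summable fun N => z ^ N * canon (pot A t) 1 L N := by
  simp only [ht.term_eq A hz]
  exact ENNReal.summable_toReal (ht.ZZ_ne_top hA _ hL)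

lemma Adm.grand_eq {t : ℕ → ℝ} (ht : Adm t) {A : ℝ} (hA : 125 * nm t ≤ A) {z : ℝ}
    (hz : 0 < z) {L : ℝ} (hL : 0 ≤ L) :
    grand (pot A t) 1 z L = (ZZ A t (Real.log z - psi t 0) L).toReal := by
  simp only [grand, ht.term_eq A hz]
  exact (ENNReal.tsum_toReal_eq (ENNReal.ne_top_of_tsum_ne_top (ht.ZZ_ne_top hA _ hL))).symm

theorem main : ∃ f : ℝ → ℝ, Measurable f ∧ LocBdd f ∧ Stable f ∧ Tempered f ∧
    ∃ β : ℝ, 0 < β ∧
      (∀ L : ℝ, 0 ≤ L → ∀ N : ℕ,
        IntegrableOn (boltz f β N) (Set.univ.pi fun _ : Fin N => box L)) ∧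
      (∀ z : ℝ, 0 < z → ∀ L : ℝ, 0 ≤ L → Summable fun N : ℕ => z ^ N * canon f β L N) ∧
      ∃ P : ℝ → ℝ,
        (∀ z : ℝ, 0 < z →
          Tendsto (fun L : ℝ => Real.log (grand f β z L) / L ^ 3) atTop (𝓝 (P z))) ∧
        ∃ z : ℝ, 0 < z ∧ ¬ DifferentiableAt ℝ P z := by
  obtain ⟨A, t, ν, ht, hA, h⟩ := exists_not_diff
  refine ⟨pot A t, ht.measurable_pot A, ht.locBdd hA, ⟨125 * nm t, fun N x _ => ht.energy_ge hA x⟩,
    ht.tempered A, 1, one_pos, fun L hL N => ht.integrable_boltz hA hL N,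
    fun z hz L hL => ht.summable_grand hA hz hL, fun z => PP A t (Real.log z - psi t 0),
    fun z hz => ?_, Real.exp (ν + psi t 0), Real.exp_pos _, fun hd => h ?_⟩
  · refine (ht.tendsto_PP hA _).congr' ?_
    filter_upwards [eventually_ge_atTop 0] with L hL
    rw [ht.grand_eq hA hz hL, lg]
  · have h1 : DifferentiableAt ℝ (fun u : ℝ => Real.exp (u + psi t 0)) ν := by fun_prop
    have h2 := hd.comp ν h1
    have h3 : ((fun z => PP A t (Real.log z - psi t 0)) ∘ fun u => Real.exp (u + psi t 0))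
        = PP A t := by
      funext u
      simp
    rwa [h3] at h2

end Vale.Agent.P171
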