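import Vale.Agent.P171.Model

/-! Superadditivity, the thermodynamic limit and the trial-state lower bound. -/

namespace Vale.Agent.P171

open MeasureTheory Classical Filter Topology
open scoped ENNReal NNReal

def Sep {ι : Type*} (T : Finset ι) (c : ι → Set Pt) : Prop :=
  ∀ k ∈ T, ∀ l ∈ T, k ≠ l → ∀ x ∈ c k, ∀ y ∈ c l, 1 < dist x y

lemma Sep.disj {ι : Type*} {T : Finset ι} {c : ι → Set Pt} (h : Sep T c) : Disj T c :=
  fun k hk l hl hkl => Set.disjoint_left.2 fun x hx hx' => by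
    have := h k hk l hl hkl x hx x hx'
    rw [dist_self] at this; linarith

lemma Sep.DD_eq {ι : Type*} {T : Finset ι} {c : ι → Set Pt} (h : Sep T c) {s : Multiset Pt}
    (hs : ∀ x ∈ s, x ∈ ⋃ k ∈ T, c k) : ∑ k ∈ T, DD 1 (s.filter (· ∈ c k)) = DD 1 s := by
  simp only [DD]
  rw [sum_ps_filter h.disj]
  refine ps_congr fun x hx y hy => ?_
  by_cases hd : dist x y ≤ 1
  · obtain ⟨k, hk, hxk⟩ : ∃ k ∈ T, x ∈ c k := by simpa using hs x hx
    obtain ⟨l, hl, hyl⟩ : ∃ l ∈ T, y ∈ c l := by simpa using hs y hy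
    have hkl : k = l := by
      by_contra hne
      linarith [h k hk l hl hne x hxk y hyl]
    subst hkl
    rw [ind_pos (show Same T c x y from ⟨k, hk, hxk, hyl⟩), one_mul]
  · rw [ind_neg hd, mul_zero]

lemma sum_WW_le {ι : Type*} {T : Finset ι} {c : ι → Set Pt} (h : Disj T c) {t : ℕ → ℝ}
    (ht : Adm t) (s : Multiset Pt) : ∑ k ∈ T, WW t (s.filter (· ∈ c k)) ≤ WW t s := by
  simp only [WW]
  rw [sum_ps_filter h]
  exact ps_mono fun x _ y _ => mul_le_of_le_one_left (ht.psi_nonneg _) (ind_le_one _)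

lemma Sep.sum_XX_le {ι : Type*} {T : Finset ι} {c : ι → Set Pt} (h : Sep T c) {t : ℕ → ℝ}
    (ht : Adm t) (A ν : ℝ) {s : Multiset Pt} (hs : ∀ x ∈ s, x ∈ ⋃ k ∈ T, c k) :
    ∑ k ∈ T, XX A t ν (s.filter (· ∈ c k)) ≤ XX A t ν s := by
  simp only [XX, Finset.sum_add_distrib, Finset.sum_sub_distrib, ← Finset.mul_sum]
  rw [sum_card_filter h.disj hs, h.DD_eq hs]
  linarith [sum_WW_le h.disj ht s]

def lat (g L : ℝ) (m : Fin 3 → ℕ) : Set Pt := cube (WithLp.toLp 2 fun a => (m a : ℝ) * g) L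

def grid (k : ℕ) : Finset (Fin 3 → ℕ) := Fintype.piFinset fun _ => Finset.range k

lemma card_grid (k : ℕ) : (grid k).card = k ^ 3 := by simp [grid]

lemma mem_lat {g L : ℝ} {m : Fin 3 → ℕ} {x : Pt} :
    x ∈ lat g L m ↔ ∀ a, 0 ≤ x a - m a * g ∧ x a - m a * g ≤ L := by simp [lat, cube]

lemma lat_sep {g L : ℝ} (hL : 0 ≤ L) (h : L + 1 < g) (T : Finset (Fin 3 → ℕ)) :
    Sep T (lat g L) := by
  intro k _ l _ hkl x hx y hy
  obtain ⟨a, ha⟩ := Function.ne_iff.1 hkl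
  refine lt_of_lt_of_le ?_ (abs_le_dist x y a)
  have h1 := mem_lat.1 hx a
  have h2 := mem_lat.1 hy a
  rcases lt_or_gt_of_ne ha with h3 | h3
  · have : (k a : ℝ) + 1 ≤ l a := by exact_mod_cast h3
    rw [lt_abs]; right; nlinarith
  · have : (l a : ℝ) + 1 ≤ k a := by exact_mod_cast h3
    rw [lt_abs]; left; nlinarith

lemma lat_sub {g L L' : ℝ} (hL : 0 ≤ L) (h : L ≤ g) {k : ℕ} (hk : k * g ≤ L') :
    (⋃ m ∈ grid k, lat g L m) ⊆ box L' := by
  intro x hx a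
  obtain ⟨m, hm, hxm⟩ : ∃ m ∈ grid k, x ∈ lat g L m := by simpa using hx
  have h1 := mem_lat.1 hxm a
  have h2 : m a < k := by simpa [grid] using Fintype.mem_piFinset.1 hm a
  have h3 : (m a : ℝ) + 1 ≤ k := by exact_mod_cast h2
  have h4 : (0:ℝ) ≤ m a := Nat.cast_nonneg _
  constructor <;> nlinarith [h1.1, h1.2]

lemma ofReal_exp_sum {ι : Type*} (T : Finset ι) (f : ι → ℝ) :
    ENNReal.ofReal (Real.exp (∑ k ∈ T, f k)) = ∏ k ∈ T, ENNReal.ofReal (Real.exp (f k)) := by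
  rw [Real.exp_sum, ENNReal.ofReal_prod_of_nonneg fun _ _ => (Real.exp_pos _).le]

lemma Adm.ZZ_super {t : ℕ → ℝ} (ht : Adm t) (A ν : ℝ) {L L' : ℝ} (hL : 0 ≤ L) {k : ℕ}
    (hk : k * (L + 2) ≤ L') : ZZ A t ν L ^ (k ^ 3) ≤ ZZ A t ν L' := by
  have hs := lat_sep (g := L + 2) hL (by linarith) (grid k)
  have h1 := Xi_prod (grid k) (lat (L + 2) L) (fun _ => measurableSet_cube _ _) hs.disj
    (fun _ => FF A t ν) (fun _ => ht.meas_FF A ν)
  have h2 : ∀ m, Xi (lat (L + 2) L m) (FF A t ν) = ZZ A t ν L := fun m =>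
    Xi_cube _ _ (FF_translate A t ν _)
  simp only [h2, Finset.prod_const, card_grid] at h1
  rw [← h1]
  refine le_trans (Xi_mono (Finset.measurableSet_biUnion _ fun _ _ => measurableSet_cube _ _)
    fun s hs' => ?_) (Xi_mono_set (lat_sub hL (by linarith) hk) _)
  simp only [FF]
  rw [← ofReal_exp_sum]
  exact ENNReal.ofReal_le_ofReal (Real.exp_le_exp.2 (hs.sum_XX_le ht A ν hs'))

lemma Adm.lg_super {t : ℕ → ℝ} (ht : Adm t) {A : ℝ} (hA : 125 * nm t ≤ A) (ν : ℝ) {L L' : ℝ}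
    (hL : 0 ≤ L) {k : ℕ} (hk : k * (L + 2) ≤ L') : (k:ℝ) ^ 3 * lg A t ν L ≤ lg A t ν L' := by
  have h := ht.ZZ_super A ν hL hk
  rw [ht.ZZ_eq hA ν hL, ← ENNReal.ofReal_pow (Real.exp_pos _).le, ← Real.exp_nat_mul] at h
  have := ht.le_lg hA (le_trans (by positivity) hk) h
  simpa using this

lemma tendsto_cube (c : ℝ) : Tendsto (fun L : ℝ => (L + c) ^ 3 / L ^ 3) atTop (𝓝 1) := by
  have h : Tendsto (fun L : ℝ => (1 + c / L) ^ 3) atTop (𝓝 ((1 + 0) ^ 3)) :=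
    (tendsto_const_nhds.add (tendsto_const_nhds.div_atTop tendsto_id)).pow 3
  simp only [add_zero, one_pow] at h
  refine h.congr' ?_
  filter_upwards [eventually_gt_atTop 0] with L hL
  field_simp

lemma limit_of_super (f : ℝ → ℝ) (p : ℝ) (h0 : ∀ L, 0 ≤ f L)
    (hup : ∀ L, 0 ≤ L → f L ≤ p * (L + 2) ^ 3)
    (hsup : ∀ q < p, ∃ L, 0 ≤ L ∧ q < f L / (L + 2) ^ 3)
    (hsuper : ∀ L L' : ℝ, 0 ≤ L → ∀ k : ℕ, k * (L + 2) ≤ L' → (k:ℝ) ^ 3 * f L ≤ f L') :
    Tendsto (fun L => f L / L ^ 3) atTop (𝓝 p) := by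
  refine tendsto_order.2 ⟨fun a ha => ?_, fun a ha => ?_⟩
  · obtain ⟨L0, hL0, hq⟩ := hsup a ha
    set q := f L0 / (L0 + 2) ^ 3 with hq'
    have hq0 : 0 ≤ q := div_nonneg (h0 _) (by positivity)
    have h1 : Tendsto (fun L : ℝ => q * ((L + -(L0 + 2)) ^ 3 / L ^ 3)) atTop (𝓝 (q * 1)) :=
      (tendsto_cube _).const_mul q
    rw [mul_one] at h1
    filter_upwards [h1.eventually (lt_mem_nhds hq), eventually_ge_atTop (L0 + 2)] with L h2 hL
    refine h2.trans_le ?_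
    have hg : 0 < L0 + 2 := by linarith
    have hk1 : (⌊L / (L0 + 2)⌋₊ : ℝ) * (L0 + 2) ≤ L := by
      rw [← le_div_iff₀ hg]; exact Nat.floor_le (div_nonneg (by linarith) hg.le)
    have hk2 : L + -(L0 + 2) ≤ (⌊L / (L0 + 2)⌋₊ : ℝ) * (L0 + 2) := by
      have := Nat.lt_floor_add_one (L / (L0 + 2))
      rw [div_lt_iff₀ hg] at this; linarith
    have h3 := hsuper L0 L hL0 _ hk1
    have h4 : f L0 = q * (L0 + 2) ^ 3 := by rw [hq']; field_simp
    rw [← mul_div_assoc]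
    refine div_le_div_of_nonneg_right (le_trans ?_ h3) (pow_nonneg (by linarith) 3)
    rw [h4]
    have h5 := pow_le_pow_left₀ (by linarith) hk2 3
    calc _ ≤ q * ((⌊L / (L0 + 2)⌋₊ : ℝ) * (L0 + 2)) ^ 3 := mul_le_mul_of_nonneg_left h5 hq0
      _ = _ := by ring
  · have h1 : Tendsto (fun L : ℝ => p * ((L + 2) ^ 3 / L ^ 3)) atTop (𝓝 (p * 1)) :=
      (tendsto_cube _).const_mul p
    rw [mul_one] at h1
    filter_upwards [h1.eventually (gt_mem_nhds ha), eventually_ge_atTop 0] with L h2 hL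
    refine lt_of_le_of_lt ?_ h2
    rw [← mul_div_assoc]
    exact div_le_div_of_nonneg_right (hup L hL) (pow_nonneg hL 3)

/-- The pressure. -/
noncomputable def PP (A : ℝ) (t : ℕ → ℝ) (ν : ℝ) : ℝ :=
  ⨆ L : ℝ≥0, lg A t ν L / ((L:ℝ) + 2) ^ 3

lemma PP_le {A : ℝ} {t : ℕ → ℝ} {ν c : ℝ} (h : ∀ L, 0 ≤ L → lg A t ν L ≤ c * (L + 2) ^ 3) :
    PP A t ν ≤ c :=
  ciSup_le fun L => (div_le_iff₀ (by positivity)).2 (h L L.2)

lemma Adm.lg_le_exp {t : ℕ → ℝ} (ht : Adm t) {A : ℝ} (hA : 125 * nm t ≤ A) (ν : ℝ) {L : ℝ}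
    (hL : 0 ≤ L) : lg A t ν L ≤ Real.exp (ν + 125 * nm t) * (L + 2) ^ 3 :=
  (lg_le (ht.ZZ_le hA ν hL)).trans (by gcongr; linarith)

lemma Adm.PP_le_exp {t : ℕ → ℝ} (ht : Adm t) {A : ℝ} (hA : 125 * nm t ≤ A) (ν : ℝ) :
    PP A t ν ≤ Real.exp (ν + 125 * nm t) := PP_le fun _ hL => ht.lg_le_exp hA ν hL

lemma Adm.lg_le_PP {t : ℕ → ℝ} (ht : Adm t) {A : ℝ} (hA : 125 * nm t ≤ A) (ν : ℝ) {L : ℝ}
    (hL : 0 ≤ L) : lg A t ν L ≤ PP A t ν * (L + 2) ^ 3 := by
  rw [← div_le_iff₀ (by positivity)]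
  refine le_ciSup (f := fun L : ℝ≥0 => lg A t ν L / ((L:ℝ) + 2) ^ 3)
    ⟨Real.exp (ν + 125 * nm t), ?_⟩ ⟨L, hL⟩
  rintro _ ⟨L, rfl⟩
  exact (div_le_iff₀ (by positivity)).2 (ht.lg_le_exp hA ν L.2)

lemma PP_nonneg (A : ℝ) (t : ℕ → ℝ) (ν : ℝ) : 0 ≤ PP A t ν :=
  Real.iSup_nonneg fun L => div_nonneg (lg_nonneg _ _ _ _) (by positivity)

lemma Adm.tendsto_PP {t : ℕ → ℝ} (ht : Adm t) {A : ℝ} (hA : 125 * nm t ≤ A) (ν : ℝ) :
    Tendsto (fun L => lg A t ν L / L ^ 3) atTop (𝓝 (PP A t ν)) := by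
  refine limit_of_super _ _ (lg_nonneg A t ν) (fun L hL => ht.lg_le_PP hA ν hL) (fun q hq => ?_)
    (fun L L' hL k hk => ht.lg_super hA ν hL hk)
  obtain ⟨L, hL⟩ := exists_lt_of_lt_ciSup hq
  exact ⟨L, L.2, hL⟩

lemma Adm.ZZ_le_PP {t : ℕ → ℝ} (ht : Adm t) {A : ℝ} (hA : 125 * nm t ≤ A) (ν : ℝ) {L : ℝ}
    (hL : 0 ≤ L) : ZZ A t ν L ≤ ENNReal.ofReal (Real.exp (PP A t ν * (L + 2) ^ 3)) := by
  rw [ht.ZZ_eq hA ν hL]
  exact ENNReal.ofReal_le_ofReal (Real.exp_le_exp.2 (ht.lg_le_PP hA ν hL))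

/-! ### Trial states -/

lemma trial_DD {m j : ℕ} (hj : j < m) {s : Multiset Pt}
    (hs : ∀ x ∈ s, x ∈ ⋃ k ∈ grid m, lat 2 (1/2) k)
    (h1 : ∀ k ∈ grid m, Multiset.card (s.filter (· ∈ lat 2 (1/2) k)) = 1) :
    (Multiset.card s : ℝ) / 64 ≤ DD ((j + 1 : ℕ) : ℝ) s / ((j + 1 : ℕ) : ℝ) ^ 3 := by
  set r := j / 4 with hr
  have key : ∀ x ∈ s, ((r + 1 : ℕ) : ℝ) ^ 3 ≤
      (s.map fun y => ind (dist x y ≤ ((j + 1 : ℕ) : ℝ))).sum := by
    intro x hx
    obtain ⟨k, hk, hxk⟩ : ∃ k ∈ grid m, x ∈ lat 2 (1/2) k := by simpa using hs x hx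
    have hk' : ∀ a, k a < m := fun a => by simpa [grid] using Fintype.mem_piFinset.1 hk a
    set N := Fintype.piFinset fun a : Fin 3 =>
      Finset.Ico (min (k a) (m - (r + 1))) (min (k a) (m - (r + 1)) + (r + 1)) with hN
    have hNc : N.card = (r + 1) ^ 3 := by simp [hN]
    have hNs : ∀ l ∈ N, l ∈ grid m ∧ ∀ a, k a ≤ l a + r ∧ l a ≤ k a + r := by
      intro l hl
      have := fun a => Finset.mem_Ico.1 (Fintype.mem_piFinset.1 hl a)
      refine ⟨Fintype.mem_piFinset.2 fun a => Finset.mem_range.2 ?_, fun a => ?_⟩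
      · have := this a; omega
      · have := this a; have := hk' a; omega
    have hd := (lat_sep (g := 2) (L := 1/2) (by norm_num) (by norm_num) N).disj
    calc ((r + 1 : ℕ) : ℝ) ^ 3 = ∑ l ∈ N, (Multiset.card (s.filter (· ∈ lat 2 (1/2) l)) : ℝ) := by
          rw [Finset.sum_congr rfl fun l hl => by rw [h1 l (hNs l hl).1]]
          simp [hNc]
      _ = (s.map fun y => ind (Same N (lat 2 (1/2)) y y)).sum := by
          simp only [card_filter_eq, ← sum_map_finsetSum, ← sum_ind_same hd, and_self]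
      _ ≤ _ := by
          refine Multiset.sum_map_le_sum_map _ _ fun y _ => ind_mono ?_
          rintro ⟨l, hl, hy, -⟩
          have : dist x y ≤ 2 * (2 * r + 1/2) := dist_le_of_abs fun a => by
            have h2 := mem_lat.1 hxk a
            have h3 := mem_lat.1 hy a
            have h4 : (k a : ℝ) ≤ l a + r := by exact_mod_cast ((hNs l hl).2 a).1
            have h5 : (l a : ℝ) ≤ k a + r := by exact_mod_cast ((hNs l hl).2 a).2
            rw [abs_le]; constructor <;> linarith [h2.1, h2.2, h3.1, h3.2]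
          have h6 : (4:ℝ) * r ≤ j := by exact_mod_cast (show 4 * r ≤ j by omega)
          push_cast; linarith
  have h2 : (Multiset.card s : ℝ) * ((r + 1 : ℕ) : ℝ) ^ 3 ≤ DD ((j + 1 : ℕ) : ℝ) s := by
    have := Multiset.sum_map_le_sum_map _ _ key
    simpa [DD, ps] using this
  have h3 : ((j + 1 : ℕ) : ℝ) ^ 3 ≤ 64 * ((r + 1 : ℕ) : ℝ) ^ 3 := by
    have : ((j + 1 : ℕ) : ℝ) ≤ 4 * ((r + 1 : ℕ) : ℝ) := by
      exact_mod_cast (show j + 1 ≤ 4 * (r + 1) by omega)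
    calc _ ≤ (4 * ((r + 1 : ℕ) : ℝ)) ^ 3 := by gcongr
      _ = _ := by ring
  rw [div_le_div_iff₀ (by norm_num) (by positivity)]
  nlinarith [Nat.cast_nonneg (α := ℝ) (Multiset.card s)]

lemma trial_XX {t : ℕ → ℝ} (ht : Adm t) {A : ℝ} (hA : 0 ≤ A) (ν : ℝ) {m M : ℕ} (hM : M ≤ m)
    {s : Multiset Pt} (hs : ∀ x ∈ s, x ∈ ⋃ k ∈ grid m, lat 2 (1/2) k)
    (h1 : ∀ k ∈ grid m, Multiset.card (s.filter (· ∈ lat 2 (1/2) k)) = 1) :
    ∑ _k ∈ grid m, (ν + (∑ j ∈ Finset.range M, t j) / 64) ≤ XX A t ν s := by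
  have hsep := lat_sep (g := 2) (L := 1/2) (by norm_num) (by norm_num) (grid m)
  have hn : (Multiset.card s : ℝ) = (grid m).card := by
    rw [← sum_card_filter hsep.disj hs, Finset.sum_congr rfl fun l hl => by rw [h1 l hl]]
    simp
  have hD : DD 1 s ≤ Multiset.card s := by
    rw [← hsep.DD_eq hs, hn]
    calc _ ≤ ∑ k ∈ grid m, (1:ℝ) := Finset.sum_le_sum fun k hk => by
          have := DD_le_sq 1 (s.filter (· ∈ lat 2 (1/2) k))
          rw [h1 k hk] at this; simpa using this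
      _ = _ := by simp
  have hW : (∑ j ∈ Finset.range M, t j) / 64 * Multiset.card s ≤ WW t s := by
    refine le_trans ?_ (sum_le_hasSum (Finset.range M) (fun j _ => mul_nonneg (ht.1 j)
      (div_nonneg (DD_nonneg _ _) (by positivity))) (ht.hasSum_WW s))
    rw [Finset.sum_div, Finset.sum_mul]
    refine Finset.sum_le_sum fun j hj => ?_
    have := mul_le_mul_of_nonneg_left
      (trial_DD (lt_of_lt_of_le (Finset.mem_range.1 hj) hM) hs h1) (ht.1 j)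
    linarith
  rw [Finset.sum_const, nsmul_eq_mul, ← hn, XX]
  nlinarith

lemma trial_ZZ {t : ℕ → ℝ} (ht : Adm t) {A : ℝ} (hA : 0 ≤ A) (ν : ℝ) {m M : ℕ} (hM : M ≤ m) :
    ENNReal.ofReal (Real.exp ((m:ℝ) ^ 3 * (ν + (∑ j ∈ Finset.range M, t j) / 64 - 3)))
      ≤ ZZ A t ν (m * 2) := by
  set κ := ν + (∑ j ∈ Finset.range M, t j) / 64
  set G : Multiset Pt → ℝ≥0∞ := fun s =>
    if Multiset.card s = 1 then ENNReal.ofReal (Real.exp κ) else 0 with hG
  have hGm : Meas G := fun N => by simp only [hG, card_ms]; exact measurable_const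
  have hsep := lat_sep (g := 2) (L := 1/2) (by norm_num) (by norm_num) (grid m)
  have h1 := Xi_prod (grid m) (lat 2 (1/2)) (fun _ => measurableSet_cube _ _) hsep.disj
    (fun _ => G) (fun _ => hGm)
  have h2 : ∀ k, ENNReal.ofReal (Real.exp (κ - 3)) ≤ Xi (lat 2 (1/2) k) G := by
    intro k
    refine le_trans ?_ (le_Xi_one _ hGm)
    simp only [hG, Multiset.card_singleton, if_true, lintegral_const,
      Measure.restrict_apply MeasurableSet.univ, Set.univ_inter]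
    rw [lat, volume_cube _ (by norm_num), ← ENNReal.ofReal_mul (Real.exp_pos _).le]
    refine ENNReal.ofReal_le_ofReal ?_
    rw [Real.exp_sub, div_eq_mul_inv]
    refine mul_le_mul_of_nonneg_left ?_ (Real.exp_pos _).le
    have : (8:ℝ) ≤ Real.exp 3 := by
      have := Real.quadratic_le_exp_of_nonneg (show (0:ℝ) ≤ 3 by norm_num)
      linarith
    rw [inv_le_comm₀ (by positivity) (by positivity)]; norm_num; linarith
  calc _ = ∏ _k ∈ grid m, ENNReal.ofReal (Real.exp (κ - 3)) := by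
        rw [← ofReal_exp_sum, Finset.sum_const, card_grid, nsmul_eq_mul, Nat.cast_pow]
    _ ≤ _ := Finset.prod_le_prod' fun k _ => h2 k
    _ = _ := h1.symm
    _ ≤ _ := by
        refine le_trans (Xi_mono (Finset.measurableSet_biUnion _ fun _ _ => measurableSet_cube _ _)
          fun s hs => ?_) (Xi_mono_set (lat_sub (by norm_num) (by norm_num) le_rfl) _)
        by_cases h : ∀ k ∈ grid m, Multiset.card (s.filter (· ∈ lat 2 (1/2) k)) = 1
        · rw [Finset.prod_congr rfl fun k hk => show G _ = ENNReal.ofReal (Real.exp κ) from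
            if_pos (h k hk), ← ofReal_exp_sum]
          exact ENNReal.ofReal_le_ofReal (Real.exp_le_exp.2 (trial_XX ht hA ν hM hs h))
        · push Not at h
          obtain ⟨k, hk, hk'⟩ := h
          rw [Finset.prod_eq_zero hk (if_neg hk')]
          exact zero_le

lemma Adm.trial_PP {t : ℕ → ℝ} (ht : Adm t) {A : ℝ} (hA : 125 * nm t ≤ A) (ν : ℝ) :
    (ν + nm t / 64 - 3) / 8 ≤ PP A t ν := by
  have hA0 : 0 ≤ A := le_trans (by have := ht.nm_nonneg; positivity) hA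
  have h1 : ∀ M, (ν + (∑ j ∈ Finset.range M, t j) / 64 - 3) / 8 ≤ PP A t ν := by
    intro M
    have h2 : Tendsto (fun m : ℕ => (m:ℝ) * 2) atTop atTop :=
      tendsto_natCast_atTop_atTop.atTop_mul_const (by norm_num)
    refine ge_of_tendsto ((ht.tendsto_PP hA ν).comp h2) ?_
    filter_upwards [eventually_ge_atTop M, eventually_gt_atTop 0] with m hm hm0
    have := ht.le_lg hA (by positivity) (trial_ZZ ht hA0 ν hm)
    have hm' : (0:ℝ) < m := by exact_mod_cast hm0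
    simp only [Function.comp]
    rw [le_div_iff₀ (by positivity)]
    refine le_trans (le_of_eq ?_) this
    ring
  have h3 := (((ht.2.hasSum.tendsto_sum_nat.div_const 64).const_add ν).sub_const 3).div_const 8
  exact le_of_tendsto' h3 h1

end Vale.Agent.P171
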