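import Vale.Agent.P171.Pair

/-! The family of potentials and the finite-volume partition functions. -/

namespace Vale.Agent.P171

open MeasureTheory Classical
open scoped ENNReal

def Adm (t : ℕ → ℝ) : Prop := (∀ j, 0 ≤ t j) ∧ Summable t

noncomputable def nm (t : ℕ → ℝ) : ℝ := ∑' j, t j

noncomputable def ker (j : ℕ) (r : ℝ) : ℝ := ind (r ≤ ((j + 1 : ℕ) : ℝ)) / ((j + 1 : ℕ) : ℝ) ^ 3

noncomputable def psi (t : ℕ → ℝ) (r : ℝ) : ℝ := ∑' j, t j * ker j r

noncomputable def WW (t : ℕ → ℝ) (s : Multiset Pt) : ℝ := ps (fun x y => psi t (dist x y)) s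

noncomputable def XX (A : ℝ) (t : ℕ → ℝ) (ν : ℝ) (s : Multiset Pt) : ℝ :=
  (ν + A) * Multiset.card s - A * DD 1 s + WW t s

noncomputable def FF (A : ℝ) (t : ℕ → ℝ) (ν : ℝ) (s : Multiset Pt) : ℝ≥0∞ :=
  ENNReal.ofReal (Real.exp (XX A t ν s))

lemma Adm.nm_nonneg {t : ℕ → ℝ} (ht : Adm t) : 0 ≤ nm t := tsum_nonneg ht.1

lemma ker_nonneg (j : ℕ) (r : ℝ) : 0 ≤ ker j r := div_nonneg (ind_nonneg _) (by positivity)

lemma ker_le_one (j : ℕ) (r : ℝ) : ker j r ≤ 1 := by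
  have : (1:ℝ) ≤ ((j + 1 : ℕ) : ℝ) ^ 3 := one_le_pow₀ (by push_cast; linarith [Nat.cast_nonneg (α := ℝ) j])
  exact (div_le_one (by positivity)).2 ((ind_le_one _).trans this)

lemma Adm.summable_ker {t : ℕ → ℝ} (ht : Adm t) (r : ℝ) : Summable fun j => t j * ker j r :=
  Summable.of_nonneg_of_le (fun j => mul_nonneg (ht.1 j) (ker_nonneg _ _))
    (fun j => mul_le_of_le_one_right (ht.1 j) (ker_le_one _ _)) ht.2

lemma Adm.psi_nonneg {t : ℕ → ℝ} (ht : Adm t) (r : ℝ) : 0 ≤ psi t r :=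
  tsum_nonneg fun j => mul_nonneg (ht.1 j) (ker_nonneg _ _)

lemma Adm.psi_le {t : ℕ → ℝ} (ht : Adm t) (r : ℝ) : psi t r ≤ nm t :=
  (ht.summable_ker r).tsum_le_tsum
    (fun j => mul_le_of_le_one_right (ht.1 j) (ker_le_one _ _)) ht.2

lemma Adm.psi_anti {t : ℕ → ℝ} (ht : Adm t) : Antitone (psi t) := fun r r' h =>
  (ht.summable_ker r').tsum_le_tsum (fun j => mul_le_mul_of_nonneg_left
    (div_le_div_of_nonneg_right (ind_mono fun h' => h.trans h') (by positivity)) (ht.1 j))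
    (ht.summable_ker r)

lemma Adm.hasSum_w {t : ℕ → ℝ} (ht : Adm t) (w : Pt → Pt → ℝ) (s : Multiset Pt) :
    HasSum (fun j => t j * (ps (fun x y => w x y * ind (dist x y ≤ ((j + 1 : ℕ) : ℝ))) s /
      ((j + 1 : ℕ) : ℝ) ^ 3)) (ps (fun x y => w x y * psi t (dist x y)) s) := by
  have := ps_hasSum s (fun j x y => w x y * (t j * ker j (dist x y)))
    (fun x y => w x y * psi t (dist x y))
    fun x y => ((ht.summable_ker (dist x y)).hasSum).mul_left (w x y)
  convert this using 2 with j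
  rw [div_eq_inv_mul, ← mul_assoc, ← ps_mul]
  refine ps_congr fun x _ y _ => ?_
  rw [ker]; ring

lemma Adm.hasSum_WW {t : ℕ → ℝ} (ht : Adm t) (s : Multiset Pt) :
    HasSum (fun j => t j * (DD ((j + 1 : ℕ) : ℝ) s / ((j + 1 : ℕ) : ℝ) ^ 3)) (WW t s) := by
  simpa only [one_mul, DD, WW] using ht.hasSum_w (fun _ _ => 1) s

lemma DD_div_le (j : ℕ) (s : Multiset Pt) :
    DD ((j + 1 : ℕ) : ℝ) s / ((j + 1 : ℕ) : ℝ) ^ 3 ≤ 125 * DD 1 s := by
  rw [div_le_iff₀ (by positivity)]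
  exact (DD_le (j+1) (by omega) s).trans (le_of_eq (by ring))

lemma Adm.WW_le {t : ℕ → ℝ} (ht : Adm t) (s : Multiset Pt) : WW t s ≤ 125 * nm t * DD 1 s := by
  have h := ht.2.hasSum.mul_right (125 * DD 1 s)
  refine (hasSum_le (fun j => ?_) (ht.hasSum_WW s) h).trans (le_of_eq (by rw [nm]; ring))
  exact mul_le_mul_of_nonneg_left (DD_div_le j s) (ht.1 j)

lemma Adm.WW_nonneg {t : ℕ → ℝ} (ht : Adm t) (s : Multiset Pt) : 0 ≤ WW t s :=
  ps_nonneg fun _ _ => ht.psi_nonneg _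

lemma Adm.XX_le {t : ℕ → ℝ} (ht : Adm t) {A : ℝ} (hA : 125 * nm t ≤ A) (ν : ℝ) (s : Multiset Pt) :
    XX A t ν s ≤ (ν + 125 * nm t) * Multiset.card s := by
  have h1 := ht.WW_le s
  have h2 := card_le_DD s
  have : (A - 125 * nm t) * Multiset.card s ≤ (A - 125 * nm t) * DD 1 s :=
    mul_le_mul_of_nonneg_left h2 (by linarith)
  rw [XX]; nlinarith

lemma measurable_ps {f : ℝ → ℝ} (hf : Measurable f) (N : ℕ) :
    Measurable fun x : Fin N → Pt => ps (fun a b => f (dist a b)) (ms x) := by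
  simp only [ps_ms]
  refine Finset.measurable_sum _ fun i _ => Finset.measurable_sum _ fun j _ => hf.comp ?_
  exact (measurable_pi_apply i).dist (measurable_pi_apply j)

lemma measurable_ind_le (R : ℝ) : Measurable fun r : ℝ => ind (r ≤ R) :=
  Antitone.measurable fun _ _ h => ind_mono fun h' => h.trans h'

lemma Adm.measurable_XX {t : ℕ → ℝ} (ht : Adm t) (A ν : ℝ) (N : ℕ) :
    Measurable fun x : Fin N → Pt => XX A t ν (ms x) := by
  simp only [XX, card_ms]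
  exact (measurable_const.sub ((measurable_ps (measurable_ind_le 1) N).const_mul A)).add
    (measurable_ps ht.psi_anti.measurable N)

lemma Adm.meas_FF {t : ℕ → ℝ} (ht : Adm t) (A ν : ℝ) : Meas (FF A t ν) := fun N =>
  (Real.measurable_exp.comp (ht.measurable_XX A ν N)).ennreal_ofReal

lemma meas_pow (w : ℝ≥0∞) : Meas fun s : Multiset Pt => w ^ Multiset.card s := fun N => by
  simp only [card_ms]; exact measurable_const

lemma FF_zero (A : ℝ) (t : ℕ → ℝ) (ν : ℝ) : FF A t ν 0 = 1 := by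
  simp [FF, XX, DD, WW, ps]

lemma FF_translate (A : ℝ) (t : ℕ → ℝ) (ν : ℝ) (v : Pt) (s : Multiset Pt) :
    FF A t ν (s.map (· + v)) = FF A t ν s := by
  simp only [FF, XX, DD, WW, ps_map, dist_add_right, Multiset.card_map]

lemma measurable_coord (a : Fin 3) : Measurable fun x : Pt => x a := by fun_prop

lemma measurableSet_cube (v : Pt) (L : ℝ) : MeasurableSet (cube v L) := by
  have : cube v L = ⋂ a, (fun x : Pt => x a - v a) ⁻¹' Set.Icc 0 L := by
    ext x; simp [cube]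
  rw [this]
  exact MeasurableSet.iInter fun a => ((measurable_coord a).sub_const _) measurableSet_Icc

lemma cube_zero (L : ℝ) : cube 0 L = box L := by ext x; simp [cube, box]

lemma measurableSet_box (L : ℝ) : MeasurableSet (box L) := cube_zero L ▸ measurableSet_cube 0 L

lemma volume_box {L : ℝ} (hL : 0 ≤ L) : volume (box L) = ENNReal.ofReal (L ^ 3) := by
  have h := (PiLp.volume_preserving_ofLp (Fin 3)).measure_preimage
    (s := Set.univ.pi fun _ => Set.Icc (0:ℝ) L)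
    (MeasurableSet.univ_pi fun _ => measurableSet_Icc).nullMeasurableSet
  have h2 : box L = WithLp.ofLp ⁻¹' (Set.univ.pi fun _ : Fin 3 => Set.Icc (0:ℝ) L) := by
    ext x; simp only [box, Set.mem_pi, Set.mem_preimage, Set.mem_univ, forall_const]; rfl
  rw [h2, h, volume_pi_pi]
  simp [Real.volume_Icc, ENNReal.ofReal_pow hL]

lemma Xi_cube (v : Pt) (L : ℝ) {F : Multiset Pt → ℝ≥0∞} (hF : ∀ s, F (s.map (· + v)) = F s) :
    Xi (cube v L) F = Xi (box L) F := by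
  simp only [Xi]
  refine tsum_congr fun N => ?_
  congr 1
  have h := (measurePreserving_add_right (volume : Measure (Fin N → Pt))
    (fun _ => v)).setLIntegral_comp_preimage_emb (measurableEmbedding_addRight _)
    (fun x => F (ms x)) (Set.univ.pi fun _ => cube v L)
  rw [II, II, ← h]
  have h1 : (fun x : Fin N → Pt => x + fun _ => v) ⁻¹' (Set.univ.pi fun _ => cube v L) =
      Set.univ.pi fun _ => box L := by
    ext x; simp [cube, box, Set.mem_pi]
  rw [h1]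
  refine lintegral_congr fun x => ?_
  rw [← hF (ms x), map_ms]; rfl

lemma volume_cube (v : Pt) {L : ℝ} (hL : 0 ≤ L) : volume (cube v L) = ENNReal.ofReal (L ^ 3) := by
  rw [← volume_box hL, ← measure_preimage_add_right volume v]
  congr 1; ext x; simp [cube, box]

/-- Finite-volume partition function. -/
noncomputable def ZZ (A : ℝ) (t : ℕ → ℝ) (ν L : ℝ) : ℝ≥0∞ := Xi (box L) (FF A t ν)

lemma one_le_ZZ (A : ℝ) (t : ℕ → ℝ) (ν L : ℝ) : 1 ≤ ZZ A t ν L :=
  (FF_zero A t ν).symm.le.trans (le_Xi_zero _ _)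

lemma ofReal_exp_mul_card (c : ℝ) (s : Multiset Pt) :
    ENNReal.ofReal (Real.exp (c * Multiset.card s)) = ENNReal.ofReal (Real.exp c) ^ Multiset.card s := by
  rw [← ENNReal.ofReal_pow (Real.exp_pos _).le, ← Real.exp_nat_mul, mul_comm]

lemma Adm.ZZ_le {t : ℕ → ℝ} (ht : Adm t) {A : ℝ} (hA : 125 * nm t ≤ A) (ν : ℝ) {L : ℝ}
    (hL : 0 ≤ L) :
    ZZ A t ν L ≤ ENNReal.ofReal (Real.exp (Real.exp (ν + 125 * nm t) * L ^ 3)) := by
  rw [← Xi_pow (box L) _ _ (Real.exp_pos _).le (by positivity) (volume_box hL)]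
  refine Xi_mono (measurableSet_box L) fun s _ => ?_
  rw [← ofReal_exp_mul_card]
  exact ENNReal.ofReal_le_ofReal (Real.exp_le_exp.2 (ht.XX_le hA ν s))

/-- Logarithm of the partition function. -/
noncomputable def lg (A : ℝ) (t : ℕ → ℝ) (ν L : ℝ) : ℝ := Real.log (ZZ A t ν L).toReal

lemma lg_nonneg (A : ℝ) (t : ℕ → ℝ) (ν L : ℝ) : 0 ≤ lg A t ν L := by
  by_cases h : ZZ A t ν L = ⊤
  · simp [lg, h]
  · refine Real.log_nonneg ?_
    have := ENNReal.toReal_mono h (one_le_ZZ A t ν L)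
    simpa using this

lemma lg_le {A : ℝ} {t : ℕ → ℝ} {ν L c : ℝ} (h : ZZ A t ν L ≤ ENNReal.ofReal (Real.exp c)) :
    lg A t ν L ≤ c := by
  have h0 : ZZ A t ν L ≠ ⊤ := ne_top_of_le_ne_top ENNReal.ofReal_ne_top h
  have h1 := ENNReal.toReal_mono h0 (one_le_ZZ A t ν L)
  have h2 := ENNReal.toReal_mono ENNReal.ofReal_ne_top h
  rw [ENNReal.toReal_ofReal (Real.exp_pos _).le] at h2
  rw [lg, Real.log_le_iff_le_exp (by simp at h1; linarith)]
  exact h2

lemma Adm.ZZ_eq {t : ℕ → ℝ} (ht : Adm t) {A : ℝ} (hA : 125 * nm t ≤ A) (ν : ℝ) {L : ℝ}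
    (hL : 0 ≤ L) : ZZ A t ν L = ENNReal.ofReal (Real.exp (lg A t ν L)) := by
  have h0 : ZZ A t ν L ≠ ⊤ := ne_top_of_le_ne_top ENNReal.ofReal_ne_top (ht.ZZ_le hA ν hL)
  have h1 := ENNReal.toReal_mono h0 (one_le_ZZ A t ν L)
  rw [lg, Real.exp_log (by simp at h1; linarith), ENNReal.ofReal_toReal h0]

lemma Adm.le_lg {t : ℕ → ℝ} (ht : Adm t) {A : ℝ} (hA : 125 * nm t ≤ A) {ν L c : ℝ}
    (hL : 0 ≤ L) (h : ENNReal.ofReal (Real.exp c) ≤ ZZ A t ν L) : c ≤ lg A t ν L := by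
  rw [ht.ZZ_eq hA ν hL, ENNReal.ofReal_le_ofReal_iff (Real.exp_pos _).le] at h
  exact Real.exp_le_exp.1 h

end Vale.Agent.P171
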