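import Vale.Agent.P171.Xi
import Vale.Agent.P171.Defs

/-! Pair sums over multisets and the basic geometric estimates. -/

namespace Vale.Agent.P171

open Classical

noncomputable def ind (p : Prop) : ℝ := if p then 1 else 0

lemma ind_pos {p : Prop} (h : p) : ind p = 1 := if_pos h
lemma ind_neg {p : Prop} (h : ¬ p) : ind p = 0 := if_neg h
lemma ind_nonneg (p : Prop) : 0 ≤ ind p := by unfold ind; split_ifs <;> norm_num
lemma ind_le_one (p : Prop) : ind p ≤ 1 := by unfold ind; split_ifs <;> norm_num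
lemma ind_mono {p q : Prop} (h : p → q) : ind p ≤ ind q := by
  by_cases hp : p
  · rw [ind_pos hp, ind_pos (h hp)]
  · rw [ind_neg hp]; exact ind_nonneg q
lemma ind_congr {p q : Prop} (h : p ↔ q) : ind p = ind q := by rw [propext h]
lemma ind_add_not (p : Prop) : ind p + ind (¬ p) = 1 := by
  by_cases hp : p
  · rw [ind_pos hp, ind_neg (not_not.2 hp), add_zero]
  · rw [ind_neg hp, ind_pos hp, zero_add]

section General
variable {E : Type*}

noncomputable def ps (b : E → E → ℝ) (s : Multiset E) : ℝ :=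
  (s.map fun x => (s.map fun y => b x y).sum).sum

lemma ps_mono {b b' : E → E → ℝ} {s : Multiset E} (h : ∀ x ∈ s, ∀ y ∈ s, b x y ≤ b' x y) :
    ps b s ≤ ps b' s :=
  Multiset.sum_map_le_sum_map _ _ fun x hx => Multiset.sum_map_le_sum_map _ _ fun y hy => h x hx y hy

lemma ps_congr {b b' : E → E → ℝ} {s : Multiset E} (h : ∀ x ∈ s, ∀ y ∈ s, b x y = b' x y) :
    ps b s = ps b' s :=
  le_antisymm (ps_mono fun x hx y hy => (h x hx y hy).le) (ps_mono fun x hx y hy => (h x hx y hy).ge)

lemma ps_zero (s : Multiset E) : ps (fun _ _ => 0) s = 0 := by simp [ps]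

lemma ps_nonneg {b : E → E → ℝ} {s : Multiset E} (h : ∀ x y, 0 ≤ b x y) : 0 ≤ ps b s := by
  rw [← ps_zero s]; exact ps_mono fun x _ y _ => h x y

lemma ps_add (b b' : E → E → ℝ) (s : Multiset E) :
    ps (fun x y => b x y + b' x y) s = ps b s + ps b' s := by
  simp only [ps, Multiset.sum_map_add]

lemma ps_mul (c : ℝ) (b : E → E → ℝ) (s : Multiset E) :
    ps (fun x y => c * b x y) s = c * ps b s := by
  simp only [ps, Multiset.sum_map_mul_left]

lemma ps_sum {ι : Type*} (T : Finset ι) (b : ι → E → E → ℝ) (s : Multiset E) :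
    ps (fun x y => ∑ k ∈ T, b k x y) s = ∑ k ∈ T, ps (b k) s := by
  induction T using Finset.induction_on with
  | empty => simp [ps]
  | insert a T ha ih => simp only [Finset.sum_insert ha, ps_add, ih]

lemma sum_filter_ind (p : E → Prop) [DecidablePred p] (f : E → ℝ) (s : Multiset E) :
    ((s.filter p).map f).sum = (s.map fun x => ind (p x) * f x).sum := by
  induction s using Multiset.induction_on with
  | empty => simp
  | cons a s ih => by_cases h : p a <;> simp [h, ih, ind]

lemma ps_filter (p : E → Prop) [DecidablePred p] (b : E → E → ℝ) (s : Multiset E) :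
    ps b (s.filter p) = ps (fun x y => ind (p x ∧ p y) * b x y) s := by
  simp only [ps, sum_filter_ind]
  congr 1
  refine Multiset.map_congr rfl fun x _ => ?_
  by_cases h : p x <;> simp [h, ind]

lemma ps_one (s : Multiset E) : ps (fun _ _ => 1) s = (Multiset.card s : ℝ) ^ 2 := by
  simp [ps, sq]

lemma ps_map {F : Type*} (f : E → F) (b : F → F → ℝ) (s : Multiset E) :
    ps b (s.map f) = ps (fun x y => b (f x) (f y)) s := by
  simp only [ps, Multiset.map_map, Function.comp_def]

lemma ps_ms {N : ℕ} (b : E → E → ℝ) (x : Fin N → E) :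
    ps b (ms x) = ∑ i, ∑ j, b (x i) (x j) := by
  simp only [ps, sum_ms]

lemma hasSum_multiset (s : Multiset E) (f : E → ℕ → ℝ) (g : E → ℝ) (h : ∀ x, HasSum (f x) (g x)) :
    HasSum (fun j => (s.map fun x => f x j).sum) (s.map g).sum := by
  induction s using Multiset.induction_on with
  | empty => simp
  | cons a s ih => simpa using (h a).add ih

lemma ps_hasSum (s : Multiset E) (f : ℕ → E → E → ℝ) (g : E → E → ℝ)
    (h : ∀ x y, HasSum (fun j => f j x y) (g x y)) : HasSum (fun j => ps (f j) s) (ps g s) :=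
  hasSum_multiset s (fun x j => (s.map fun y => f j x y).sum) _ fun x =>
    hasSum_multiset s (fun y j => f j x y) _ fun y => h x y

lemma card_eq_sum (s : Multiset E) : (Multiset.card s : ℝ) = (s.map fun _ => (1:ℝ)).sum := by simp

lemma card_le_ps {b : E → E → ℝ} {s : Multiset E} (h0 : ∀ x y, 0 ≤ b x y) (h1 : ∀ x, 1 ≤ b x x) :
    (Multiset.card s : ℝ) ≤ ps b s := by
  rw [card_eq_sum]
  refine Multiset.sum_map_le_sum_map _ _ fun x hx => (h1 x).trans ?_
  refine Multiset.single_le_sum (fun r hr => ?_) _ (Multiset.mem_map_of_mem _ hx)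
  obtain ⟨y, _, rfl⟩ := Multiset.mem_map.1 hr
  exact h0 x y

lemma card_filter_eq (p : E → Prop) [DecidablePred p] (s : Multiset E) :
    (Multiset.card (s.filter p) : ℝ) = (s.map fun x => ind (p x)).sum := by
  rw [card_eq_sum, sum_filter_ind]; simp

lemma sum_map_finsetSum {ι : Type*} (T : Finset ι) (f : ι → E → ℝ) (s : Multiset E) :
    (s.map fun x => ∑ k ∈ T, f k x).sum = ∑ k ∈ T, (s.map (f k)).sum := by
  induction T using Finset.induction_on with
  | empty => simp
  | insert a T ha ih => simp only [Finset.sum_insert ha, Multiset.sum_map_add, ih]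

/-- Disjoint family on a finite index set. -/
def Disj {ι : Type*} (T : Finset ι) (c : ι → Set E) : Prop :=
  ∀ k ∈ T, ∀ l ∈ T, k ≠ l → Disjoint (c k) (c l)

/-- Both points in the same member of the family. -/
def Same {ι : Type*} (T : Finset ι) (c : ι → Set E) (x y : E) : Prop :=
  ∃ k ∈ T, x ∈ c k ∧ y ∈ c k

lemma sum_ind_same {ι : Type*} {T : Finset ι} {c : ι → Set E} (hd : Disj T c) (x y : E) :
    ∑ k ∈ T, ind (x ∈ c k ∧ y ∈ c k) = ind (Same T c x y) := by
  by_cases h : Same T c x y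
  · rw [ind_pos h]
    obtain ⟨k, hk, hx, hy⟩ := h
    rw [Finset.sum_eq_single k, ind_pos ⟨hx, hy⟩]
    · intro l hl hlk
      exact ind_neg fun h => Set.disjoint_left.1 (hd l hl k hk hlk) h.1 hx
    · intro h; exact absurd hk h
  · rw [ind_neg h]
    exact Finset.sum_eq_zero fun k hk => ind_neg fun h' => h ⟨k, hk, h'⟩

lemma sum_ps_filter {ι : Type*} {T : Finset ι} {c : ι → Set E} (hd : Disj T c) (b : E → E → ℝ)
    (s : Multiset E) : ∑ k ∈ T, ps b (s.filter (· ∈ c k)) =
      ps (fun x y => ind (Same T c x y) * b x y) s := by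
  simp only [ps_filter, ← ps_sum, ← Finset.sum_mul, sum_ind_same hd]

lemma sum_card_filter {ι : Type*} {T : Finset ι} {c : ι → Set E} (hd : Disj T c)
    {s : Multiset E} (hs : ∀ x ∈ s, x ∈ ⋃ k ∈ T, c k) :
    ∑ k ∈ T, (Multiset.card (s.filter (· ∈ c k)) : ℝ) = Multiset.card s := by
  simp only [card_filter_eq, ← sum_map_finsetSum]
  rw [card_eq_sum]
  congr 1
  refine Multiset.map_congr rfl fun x hx => ?_
  have h := sum_ind_same hd x x
  simp only [and_self] at h
  rw [h, ind_pos]
  simpa [Same] using hs x hx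

lemma shift_le {ι : Type*} (τ : ι → ι) (hτ : Function.Injective τ) (m : Multiset ι) :
    ps (fun a b => ind (b = τ a)) m ≤ ps (fun a b => ind (b = a)) m := by
  have hc : ∀ a, (m.map fun b => ind (b = a)).sum = m.count a := by
    intro a
    rw [← card_filter_eq, Multiset.count_eq_card_filter_eq]
    congr 2
    exact Multiset.filter_congr fun x _ => eq_comm
  have h1 : ps (fun a b => ind (b = τ a)) m =
      ∑ a ∈ m.toFinset, (m.count a : ℝ) * m.count (τ a) := by
    simp only [ps, hc]
    simp only [Finset.sum_multiset_map_count, nsmul_eq_mul]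
  have h2 : ps (fun a b => ind (b = a)) m =
      ∑ a ∈ m.toFinset, (m.count a : ℝ) ^ 2 := by
    simp only [ps, hc]
    simp only [Finset.sum_multiset_map_count, nsmul_eq_mul, sq]
  have h3 : ∑ a ∈ m.toFinset, (m.count (τ a) : ℝ) ^ 2 ≤ ∑ a ∈ m.toFinset, (m.count a : ℝ) ^ 2 := by
    rw [← Finset.sum_image (f := fun a => (m.count a : ℝ) ^ 2) (fun a _ b _ h => hτ h)]
    have := Finset.sum_le_sum_of_ne_zero (s := m.toFinset.image τ) (t := m.toFinset)
      (f := fun a => m.count a ^ 2) fun b _ hb => by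
        rw [Multiset.mem_toFinset, ← Multiset.count_ne_zero]
        intro h; rw [h] at hb; simp at hb
    exact_mod_cast this
  rw [h1, h2]
  calc _ ≤ ∑ a ∈ m.toFinset, ((m.count a : ℝ) ^ 2 / 2 + (m.count (τ a) : ℝ) ^ 2 / 2) :=
        Finset.sum_le_sum fun a _ => by nlinarith [sq_nonneg ((m.count a : ℝ) - m.count (τ a))]
    _ ≤ _ := by rw [Finset.sum_add_distrib, ← Finset.sum_div, ← Finset.sum_div]; linarith

lemma cell_bound (q : E → Fin 3 → ℤ) (r : ℕ) (P : E → E → Prop)
    (h : ∀ x y, P x y → ∀ a, |q y a - q x a| ≤ r) (s : Multiset E) :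
    ps (fun x y => ind (P x y)) s ≤ (2 * r + 1) ^ 3 * ps (fun x y => ind (q y = q x)) s := by
  set V := Fintype.piFinset fun _ : Fin 3 => Finset.Icc (-(r:ℤ)) r
  have hV : (V.card : ℝ) = (2 * r + 1) ^ 3 := by
    have : ((r:ℤ) + 1 - -r).toNat = 2 * r + 1 := by omega
    simp only [V, Fintype.card_piFinset, Int.card_Icc, this]; simp
  calc _ ≤ ps (fun x y => ∑ v ∈ V, ind (q y = q x + v)) s := by
        refine ps_mono fun x _ y _ => ?_
        by_cases hP : P x y
        · have hv : q y - q x ∈ V := by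
            simp only [V, Fintype.mem_piFinset, Finset.mem_Icc]
            intro a; exact abs_le.1 (h x y hP a)
          have := Finset.single_le_sum (f := fun v => ind (q y = q x + v))
            (fun v _ => ind_nonneg _) hv
          rw [ind_pos (by simp)] at this
          rwa [ind_pos hP]
        · rw [ind_neg hP]; exact Finset.sum_nonneg fun v _ => ind_nonneg _
    _ = ∑ v ∈ V, ps (fun a b => ind (b = a + v)) (s.map q) := by
        rw [ps_sum]; simp only [ps_map]
    _ ≤ ∑ v ∈ V, ps (fun a b => ind (b = a)) (s.map q) :=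
        Finset.sum_le_sum fun v _ => shift_le (fun a => a + v) (add_left_injective v) (s.map q)
    _ = _ := by rw [Finset.sum_const, nsmul_eq_mul, hV, ps_map]

end General

lemma abs_le_dist (x y : Pt) (a : Fin 3) : |x a - y a| ≤ dist x y := by
  rw [← Real.dist_eq]; exact PiLp.dist_apply_le x y a

lemma dist_le_of_abs {x y : Pt} {c : ℝ} (h : ∀ a, |x a - y a| ≤ c) : dist x y ≤ 2 * c := by
  have hc : 0 ≤ c := (abs_nonneg _).trans (h 0)
  refine le_of_pow_le_pow_left₀ two_ne_zero (by positivity) ?_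
  rw [EuclideanSpace.dist_sq_eq, Fin.sum_univ_three]
  have := fun a => pow_le_pow_left₀ (abs_nonneg _) (h a) 2
  simp only [Real.dist_eq]
  nlinarith [this 0, this 1, this 2]

/-- Number of ordered pairs at distance at most `R` (diagonal included). -/
noncomputable def DD (R : ℝ) (s : Multiset Pt) : ℝ := ps (fun x y => ind (dist x y ≤ R)) s

lemma DD_nonneg (R : ℝ) (s : Multiset Pt) : 0 ≤ DD R s := ps_nonneg fun _ _ => ind_nonneg _

lemma card_le_DD (s : Multiset Pt) : (Multiset.card s : ℝ) ≤ DD 1 s :=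
  card_le_ps (fun _ _ => ind_nonneg _) (fun x => by rw [ind_pos (by simp)])

lemma DD_le_sq (R : ℝ) (s : Multiset Pt) : DD R s ≤ (Multiset.card s : ℝ) ^ 2 := by
  rw [← ps_one]; exact ps_mono fun x _ y _ => ind_le_one _

lemma floor_close {u v : ℝ} {r : ℕ} (h : |u - v| ≤ r) : |⌊u⌋ - ⌊v⌋| ≤ r := by
  obtain ⟨h1, h2⟩ := abs_le.1 h
  have a1 : ⌊u⌋ ≤ ⌊v⌋ + r := by rw [← Int.floor_add_natCast]; exact Int.floor_mono (by linarith)
  have a2 : ⌊v⌋ ≤ ⌊u⌋ + r := by rw [← Int.floor_add_natCast]; exact Int.floor_mono (by linarith)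
  rw [abs_le]; constructor <;> linarith

lemma DD_le (R : ℕ) (hR : 1 ≤ R) (s : Multiset Pt) : DD R s ≤ 125 * (R:ℝ) ^ 3 * DD 1 s := by
  have h1 := cell_bound (fun (x : Pt) a => ⌊2 * x a⌋) (2 * R) (fun x y => dist x y ≤ R)
    (fun x y h a => by
      have := abs_le_dist y x a
      rw [dist_comm] at this
      refine floor_close ?_
      rw [← mul_sub, abs_mul]; push_cast; norm_num; linarith) s
  have h2 : ps (fun (x y : Pt) => ind ((fun a => ⌊2 * y a⌋) = (fun a => ⌊2 * x a⌋))) s
      ≤ DD 1 s := by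
    refine ps_mono fun x _ y _ => ind_mono fun h => ?_
    have := dist_le_of_abs (x := x) (y := y) (c := 1/2) fun a => by
      have := Int.abs_sub_lt_one_of_floor_eq_floor (congrFun h a).symm
      rw [← mul_sub, abs_mul] at this; norm_num at this; linarith
    linarith
  have hR' : (1:ℝ) ≤ R := by exact_mod_cast hR
  have h3 : ((2 * ((2 * R : ℕ) : ℝ) + 1)) ^ 3 ≤ 125 * (R:ℝ) ^ 3 := by
    have : (125:ℝ) * (R:ℝ) ^ 3 = (5 * R) ^ 3 := by ring
    rw [this]; push_cast; gcongr; linarith
  exact h1.trans (mul_le_mul h3 h2 (ps_nonneg fun x y => ind_nonneg _) (by positivity))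

def cube (v : Pt) (L : ℝ) : Set Pt := {x | ∀ a, x a - v a ∈ Set.Icc 0 L}

/-- In a cube of side `ℓ`, the square of the particle number is controlled by `DD 1`. -/
lemma card_sq_le (l : ℕ) (hl : 1 ≤ l) {v : Pt} {s : Multiset Pt} (hs : ∀ x ∈ s, x ∈ cube v l) :
    (Multiset.card s : ℝ) ^ 2 ≤ 1000 * (l:ℝ) ^ 3 * DD 1 s := by
  have h1 : (Multiset.card s : ℝ) ^ 2 = DD (2 * l : ℕ) s := by
    rw [← ps_one]
    refine ps_congr fun x hx y hy => (ind_pos ?_).symm
    push_cast
    refine dist_le_of_abs fun a => ?_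
    have h1 := hs x hx a
    have h2 := hs y hy a
    rw [abs_le]; constructor <;> linarith [h1.1, h1.2, h2.1, h2.2]
  rw [h1]
  refine (DD_le (2 * l) (by omega) s).trans (le_of_eq ?_)
  push_cast; ring

end Vale.Agent.P171
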