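import Vale.Agent.P171.Lower

/-! Decoupling into cubes: the upper bound for the perturbed pressure. -/

namespace Vale.Agent.P171

open MeasureTheory Classical Filter Topology
open scoped ENNReal NNReal

noncomputable def qq (l i : ℕ) (x : Pt) (a : Fin 3) : ℤ := ⌊(x a - i) / l⌋

def cell (l i : ℕ) (k : Fin 3 → ℤ) : Set Pt := {x | qq l i x = k}

noncomputable def TT (m : ℕ) : Finset (Fin 3 → ℤ) :=
  Fintype.piFinset fun _ => Finset.Icc (-1) (m:ℤ)

lemma card_TT (m : ℕ) : (TT m).card = (m + 2) ^ 3 := by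
  have : ((m:ℤ) + 1 - -1).toNat = m + 2 := by omega
  simp only [TT, Fintype.card_piFinset, Int.card_Icc, this]; simp

lemma cell_sub {l : ℕ} (hl : 0 < l) (i : ℕ) (k : Fin 3 → ℤ) :
    cell l i k ⊆ cube (WithLp.toLp 2 fun a => (i:ℝ) + k a * l) l := by
  intro x hx a
  have h : ⌊(x a - i) / l⌋ = k a := congrFun hx a
  have hl' : (0:ℝ) < l := by exact_mod_cast hl
  obtain ⟨h1, h2⟩ := Int.floor_eq_iff.1 h
  rw [le_div_iff₀ hl'] at h1
  rw [div_lt_iff₀ hl'] at h2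
  simp only [Set.mem_Icc]
  constructor <;> linarith

lemma cell_disj (l i : ℕ) (T : Finset (Fin 3 → ℤ)) : Disj T (cell l i) :=
  fun _ _ _ _ hkl => Set.disjoint_left.2 fun _ hx hx' => hkl (hx.symm.trans hx')

lemma measurableSet_cell (l i : ℕ) (k : Fin 3 → ℤ) : MeasurableSet (cell l i k) := by
  have : Measurable (qq l i) := measurable_pi_iff.2 fun a =>
    Int.measurable_floor.comp (((measurable_coord a).sub_const _).div_const _)
  exact this (measurableSet_singleton k)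

lemma qq_mem {l i m : ℕ} (hi : i < l) {x : Pt} (hx : x ∈ box (m * l)) : qq l i x ∈ TT m := by
  refine Fintype.mem_piFinset.2 fun a => Finset.mem_Icc.2 ⟨?_, ?_⟩
  all_goals
    have hl' : (0:ℝ) < l := by exact_mod_cast (show 0 < l by omega)
    have hi' : (i:ℝ) < l := by exact_mod_cast hi
    obtain ⟨h1, h2⟩ := hx a
  · rw [qq, Int.le_floor, le_div_iff₀ hl']; push_cast; linarith
  · rw [qq, ← Int.floor_natCast (R := ℝ) m]
    refine Int.floor_mono ?_
    rw [div_le_iff₀ hl']; linarith [Nat.cast_nonneg (α := ℝ) i]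

lemma box_sub_cells {l i m : ℕ} (hi : i < l) : box (m * l) ⊆ ⋃ k ∈ TT m, cell l i k :=
  fun _ hx => Set.mem_biUnion (qq_mem hi hx) rfl

lemma same_iff {l i m : ℕ} (hi : i < l) {x : Pt} (hx : x ∈ box (m * l)) (y : Pt) :
    Same (TT m) (cell l i) x y ↔ qq l i y = qq l i x :=
  ⟨fun ⟨_, _, h1, h2⟩ => h2.trans h1.symm, fun h => ⟨_, qq_mem hi hx, rfl, h⟩⟩

lemma DD_cells {l i m : ℕ} (hi : i < l) {s : Multiset Pt} (hs : ∀ x ∈ s, x ∈ box (m * l)) :
    DD l s ≤ 27 * ∑ k ∈ TT m, (Multiset.card (s.filter (· ∈ cell l i k)) : ℝ) ^ 2 := by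
  have hl' : (0:ℝ) < l := by exact_mod_cast (show 0 < l by omega)
  have h1 := cell_bound (qq l i) 1 (fun x y => dist x y ≤ l) (fun x y h a => by
    have := abs_le_dist y x a
    rw [dist_comm] at this
    refine floor_close ?_
    rw [← sub_div, abs_div, abs_of_pos hl', div_le_iff₀ hl']
    simp only [sub_sub_sub_cancel_right]
    push_cast; linarith) s
  simp only [← ps_one]
  rw [sum_ps_filter (cell_disj l i _)]
  refine h1.trans (le_of_eq ?_)
  norm_num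
  exact ps_congr fun x hx y _ => ind_congr (same_iff hi (hs x hx) y).symm

lemma count_1d {l R : ℕ} {u v : ℝ} (huv : u ≤ v) (h : v ≤ u + R) :
    ∑ i ∈ Finset.range l, ind (⌊(v - i) / l⌋ ≠ ⌊(u - i) / l⌋) ≤ R := by
  have h1 : ∑ i ∈ Finset.range l, ind (⌊(v - i) / l⌋ ≠ ⌊(u - i) / l⌋) =
      ((Finset.range l).filter fun i : ℕ => ⌊(v - i) / l⌋ ≠ ⌊(u - i) / l⌋).card := by
    rw [Finset.card_filter]; push_cast
    refine Finset.sum_congr rfl fun i _ => ?_
    unfold ind; congr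
  rw [h1]
  have h2 : ((Finset.range l).filter fun i : ℕ => ⌊(v - i) / l⌋ ≠ ⌊(u - i) / l⌋).card ≤
      (Finset.Ioc ⌊u⌋ ⌊v⌋).card := by
    refine Finset.card_le_card_of_injOn (fun i => (i:ℤ) + ⌊(v - i) / l⌋ * l) ?_ ?_
    · intro i hi
      simp only [Finset.coe_filter, Finset.mem_range, Set.mem_ofPred_eq] at hi
      have hl' : (0:ℝ) < l := by exact_mod_cast (show 0 < l by omega)
      have h3 : ⌊(u - i) / l⌋ < ⌊(v - i) / l⌋ :=
        lt_of_le_of_ne (Int.floor_mono (by gcongr)) hi.2.symm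
      rw [Int.floor_lt, div_lt_iff₀ hl'] at h3
      have h4 := Int.floor_le ((v - i) / l)
      rw [le_div_iff₀ hl'] at h4
      simp only [Finset.coe_Ioc, Set.mem_Ioc]
      rw [Int.floor_lt, Int.le_floor]; push_cast
      constructor <;> linarith
    · intro i hi j hj hij
      simp only [Finset.coe_filter, Finset.mem_range, Set.mem_ofPred_eq] at hi hj
      have h3 := congrArg (fun n : ℤ => n % (l:ℤ)) hij
      simp only [Int.add_mul_emod_self_right] at h3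
      rw [Int.emod_eq_of_lt (by omega) (by omega), Int.emod_eq_of_lt (by omega) (by omega)] at h3
      exact_mod_cast h3
  have h3 : ⌊v⌋ ≤ ⌊u⌋ + R := by rw [← Int.floor_add_natCast]; exact Int.floor_mono h
  rw [Int.card_Ioc] at h2
  exact_mod_cast h2.trans (by omega)

lemma count_3d {l R : ℕ} {x y : Pt} (h : dist x y ≤ R) :
    ∑ i ∈ Finset.range l, ind (¬ qq l i y = qq l i x) ≤ 3 * R := by
  have h1 : ∀ a, ∑ i ∈ Finset.range l, ind (qq l i y a ≠ qq l i x a) ≤ R := by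
    intro a
    have h2 := abs_le.1 ((abs_le_dist x y a).trans h)
    rcases le_total (x a) (y a) with h3 | h3
    · exact count_1d h3 (by linarith)
    · refine le_trans (le_of_eq ?_) (count_1d (l := l) h3 (show x a ≤ y a + R by linarith))
      exact Finset.sum_congr rfl fun i _ => ind_congr ne_comm
  calc _ ≤ ∑ i ∈ Finset.range l, ∑ a, ind (qq l i y a ≠ qq l i x a) := by
        refine Finset.sum_le_sum fun i _ => ?_
        by_cases h2 : qq l i y = qq l i x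
        · rw [ind_neg (not_not.2 h2)]; exact Finset.sum_nonneg fun _ _ => ind_nonneg _
        · obtain ⟨a, ha⟩ := Function.ne_iff.1 h2
          have := Finset.single_le_sum (f := fun a => ind (qq l i y a ≠ qq l i x a))
            (fun _ _ => ind_nonneg _) (Finset.mem_univ a)
          rw [ind_pos ha] at this
          rwa [ind_pos h2]
    _ = ∑ a, ∑ i ∈ Finset.range l, ind (qq l i y a ≠ qq l i x a) := Finset.sum_comm
    _ ≤ ∑ _a : Fin 3, (R:ℝ) := Finset.sum_le_sum fun a _ => h1 a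
    _ = _ := by simp

noncomputable def del (t : ℕ → ℝ) (l : ℕ) : ℝ :=
  125 * ∑' j, t j * min 1 (3 * ((j + 1 : ℕ) : ℝ) / l)

lemma Adm.summable_del {t : ℕ → ℝ} (ht : Adm t) (l : ℕ) :
    Summable fun j => t j * min 1 (3 * ((j + 1 : ℕ) : ℝ) / l) :=
  Summable.of_nonneg_of_le (fun j => mul_nonneg (ht.1 j) (by positivity))
    (fun j => mul_le_of_le_one_right (ht.1 j) (min_le_left _ _)) ht.2

lemma Adm.del_nonneg {t : ℕ → ℝ} (ht : Adm t) (l : ℕ) : 0 ≤ del t l :=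
  mul_nonneg (by norm_num) (tsum_nonneg fun j => mul_nonneg (ht.1 j) (by positivity))

lemma Adm.del_le {t : ℕ → ℝ} (ht : Adm t) (l : ℕ) : del t l ≤ 125 * nm t :=
  mul_le_mul_of_nonneg_left ((ht.summable_del l).tsum_le_tsum
    (fun j => mul_le_of_le_one_right (ht.1 j) (min_le_left _ _)) ht.2) (by norm_num)

lemma Adm.tendsto_del {t : ℕ → ℝ} (ht : Adm t) : Tendsto (del t) atTop (𝓝 0) := by
  have h := tendsto_tsum_of_dominated_convergence (𝓕 := atTop)
    (f := fun (l : ℕ) j => t j * min 1 (3 * ((j + 1 : ℕ) : ℝ) / l)) (g := fun _ => 0) ht.2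
    (fun j => by
      have h1 : Tendsto (fun l : ℕ => 3 * ((j + 1 : ℕ) : ℝ) / l) atTop (𝓝 0) :=
        tendsto_const_div_atTop_nhds_zero_nat _
      have := ((tendsto_const_nhds (x := (1:ℝ))).min h1).const_mul (t j)
      simpa using this)
    (Eventually.of_forall fun l j => by
      rw [Real.norm_of_nonneg (mul_nonneg (ht.1 j) (by positivity))]
      exact mul_le_of_le_one_right (ht.1 j) (min_le_left _ _))
  have := h.const_mul 125
  rw [tsum_zero, mul_zero] at this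
  exact this

lemma Adm.exists_shift {t : ℕ → ℝ} (ht : Adm t) {l : ℕ} (hl : 0 < l) (s : Multiset Pt) :
    ∃ i < l, ps (fun x y => ind (¬ qq l i y = qq l i x) * psi t (dist x y)) s
      ≤ del t l * DD 1 s := by
  have hl' : (0:ℝ) < l := by exact_mod_cast hl
  have h1 := ht.hasSum_w (fun x y => ∑ i ∈ Finset.range l, ind (¬ qq l i y = qq l i x)) s
  have h2 := (ht.summable_del l).hasSum.mul_right (l * (125 * DD 1 s))
  have h3 := hasSum_le (fun j => ?_) h1 h2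
  · simp only [Finset.sum_mul, ps_sum] at h3
    obtain ⟨i, hi, h⟩ := Finset.exists_le_of_sum_le (s := Finset.range l)
      (g := fun _ => del t l * DD 1 s) ⟨0, Finset.mem_range.2 hl⟩
      (h3.trans (le_of_eq (by simp [del]; ring)))
    exact ⟨i, Finset.mem_range.1 hi, h⟩
  · rw [mul_assoc]
    refine mul_le_mul_of_nonneg_left ?_ (ht.1 j)
    have h4 : ps (fun x y => (∑ i ∈ Finset.range l, ind (¬ qq l i y = qq l i x)) *
        ind (dist x y ≤ ((j + 1 : ℕ) : ℝ))) s ≤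
        (min 1 (3 * ((j + 1 : ℕ) : ℝ) / l) * l) * DD ((j + 1 : ℕ) : ℝ) s := by
      rw [DD, ← ps_mul]
      refine ps_mono fun x _ y _ => ?_
      by_cases hd : dist x y ≤ ((j + 1 : ℕ) : ℝ)
      · refine mul_le_mul_of_nonneg_right ?_ (ind_nonneg _)
        rw [min_mul_of_nonneg _ _ hl'.le, one_mul, div_mul_cancel₀ _ hl'.ne']
        refine le_min ?_ (count_3d hd)
        refine (Finset.sum_le_sum fun i _ => ind_le_one _).trans (by simp)
      · rw [ind_neg hd, mul_zero, mul_zero]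
    calc _ ≤ (min 1 (3 * ((j + 1 : ℕ) : ℝ) / l) * l) * DD ((j + 1 : ℕ) : ℝ) s /
          ((j + 1 : ℕ) : ℝ) ^ 3 := div_le_div_of_nonneg_right h4 (by positivity)
      _ ≤ _ := by
        rw [mul_div_assoc, mul_assoc]
        gcongr
        exact DD_div_le j s

noncomputable def bump (t : ℕ → ℝ) (j : ℕ) (σ : ℝ) : ℕ → ℝ :=
  fun i => t i + if i = j then σ else 0

lemma Adm.bump {t : ℕ → ℝ} (ht : Adm t) (j : ℕ) {σ : ℝ} (hσ : 0 ≤ σ) : Adm (bump t j σ) :=
  ⟨fun i => add_nonneg (ht.1 i) (by split_ifs <;> simp [hσ]),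
    ht.2.add (hasSum_ite_eq j σ).summable⟩

lemma Adm.nm_bump {t : ℕ → ℝ} (ht : Adm t) (j : ℕ) (σ : ℝ) : nm (P171.bump t j σ) = nm t + σ :=
  (ht.2.hasSum.add (hasSum_ite_eq j σ)).tsum_eq

lemma Adm.WW_bump {t : ℕ → ℝ} (ht : Adm t) (j : ℕ) {σ : ℝ} (hσ : 0 ≤ σ) (s : Multiset Pt) :
    WW (P171.bump t j σ) s =
      WW t s + σ * (DD ((j + 1 : ℕ) : ℝ) s / ((j + 1 : ℕ) : ℝ) ^ 3) := by
  refine ((ht.bump j hσ).hasSum_WW s).unique ?_
  convert (ht.hasSum_WW s).add (hasSum_ite_eq j (σ * (DD ((j + 1 : ℕ) : ℝ) s /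
    ((j + 1 : ℕ) : ℝ) ^ 3))) using 2 with i
  rw [P171.bump, add_mul]
  split_ifs with h
  · rw [h]
  · simp

noncomputable def YY (A : ℝ) (t : ℕ → ℝ) (ν δ σ l : ℝ) (s : Multiset Pt) : ℝ :=
  XX A t ν s + δ * DD 1 s + 27 * σ * (Multiset.card s : ℝ) ^ 2 / l ^ 3

lemma Adm.decouple {t : ℕ → ℝ} (ht : Adm t) {A : ℝ} (ν : ℝ) {σ : ℝ} (hσ : 0 ≤ σ) (j m : ℕ)
    (hA : del t (j + 1) ≤ A) {s : Multiset Pt} (hs : ∀ x ∈ s, x ∈ box (m * (j + 1 : ℕ))) :
    ∃ i < j + 1, XX A (P171.bump t j σ) ν s ≤ ∑ k ∈ TT m,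
      YY A t ν (del t (j + 1)) σ (j + 1 : ℕ) (s.filter (· ∈ cell (j + 1) i k)) := by
  obtain ⟨i, hi, h⟩ := ht.exists_shift (show 0 < j + 1 by omega) s
  refine ⟨i, hi, ?_⟩
  have hd := cell_disj (j + 1) i (TT m)
  have h1 := sum_card_filter hd fun x hx => box_sub_cells hi (hs x hx)
  have h2 : ∑ k ∈ TT m, DD 1 (s.filter (· ∈ cell (j + 1) i k)) ≤ DD 1 s := by
    simp only [DD]
    rw [sum_ps_filter hd]
    exact ps_mono fun x _ y _ => mul_le_of_le_one_left (ind_nonneg _) (ind_le_one _)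
  have h3 : WW t s ≤ ∑ k ∈ TT m, WW t (s.filter (· ∈ cell (j + 1) i k))
      + del t (j + 1) * DD 1 s := by
    simp only [WW]
    rw [sum_ps_filter hd]
    refine le_trans (le_of_eq ?_) (add_le_add le_rfl h)
    rw [← ps_add]
    refine ps_congr fun x hx y _ => ?_
    rw [ind_congr (same_iff hi (hs x hx) y), ← add_mul, ind_add_not, one_mul]
  have h4 := DD_cells hi hs
  have h5 : σ * (DD ((j + 1 : ℕ) : ℝ) s / ((j + 1 : ℕ) : ℝ) ^ 3) ≤ 27 * σ *
      (∑ k ∈ TT m, (Multiset.card (s.filter (· ∈ cell (j + 1) i k)) : ℝ) ^ 2) /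
        ((j + 1 : ℕ) : ℝ) ^ 3 := by
    rw [← mul_div_assoc]
    refine div_le_div_of_nonneg_right ?_ (by positivity)
    nlinarith
  simp only [YY, XX, Finset.sum_add_distrib, Finset.sum_sub_distrib, ← Finset.mul_sum,
    ← Finset.sum_div]
  rw [h1, ht.WW_bump j hσ]
  nlinarith [mul_le_mul_of_nonneg_left h2 (sub_nonneg.2 hA)]

noncomputable def GG (A : ℝ) (t : ℕ → ℝ) (ν h c₁ c₂ c₃ : ℝ) (s : Multiset Pt) : ℝ≥0∞ :=
  ENNReal.ofReal (Real.exp c₁) * ENNReal.ofReal (Real.exp (ν + A)) ^ Multiset.card s +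
    (ENNReal.ofReal (Real.exp c₂) * FF A t ν s + ENNReal.ofReal (Real.exp c₃) * FF A t (ν + h) s)

lemma Adm.meas_GG {t : ℕ → ℝ} (ht : Adm t) (A ν h c₁ c₂ c₃ : ℝ) : Meas (GG A t ν h c₁ c₂ c₃) :=
  ((Meas.const _).mul (meas_pow _)).add (((Meas.const _).mul (ht.meas_FF A ν)).add
    ((Meas.const _).mul (ht.meas_FF A (ν + h))))

lemma exp_le_mul {a b c : ℝ} (h : a ≤ b + c) :
    ENNReal.ofReal (Real.exp a) ≤ ENNReal.ofReal (Real.exp b) * ENNReal.ofReal (Real.exp c) := by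
  rw [← ENNReal.ofReal_mul (Real.exp_pos _).le, ← Real.exp_add]
  exact ENNReal.ofReal_le_ofReal (Real.exp_le_exp.2 h)

lemma Adm.cube_bound {t : ℕ → ℝ} (ht : Adm t) {A ν δ σ h ρ K : ℝ} (hδ : 0 ≤ δ) (hσ : 0 ≤ σ)
    (hh : 0 ≤ h) (hA : 125 * nm t + δ + 27000 * σ + 1 ≤ A)
    {l : ℕ} (hl : 1 ≤ l) {v : Pt} {s : Multiset Pt} (hs : ∀ x ∈ s, x ∈ cube v l) :
    ENNReal.ofReal (Real.exp (YY A t ν δ σ l s)) ≤ GG A t ν h (-(K * l ^ 3))
      ((δ * K + 27 * σ * ρ ^ 2) * l ^ 3) ((δ * K + 27000 * σ * K - h * ρ) * l ^ 3) s := by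
  have hl' : (0:ℝ) < (l:ℝ) ^ 3 := by positivity
  have h1 := card_sq_le l hl hs
  have hD := DD_nonneg 1 s
  have h2 : 27 * σ * (Multiset.card s : ℝ) ^ 2 / l ^ 3 ≤ 27000 * σ * DD 1 s := by
    rw [div_le_iff₀ hl']; nlinarith
  by_cases ha : K * l ^ 3 ≤ DD 1 s
  · refine le_trans ?_ le_self_add
    rw [← ofReal_exp_mul_card]
    refine exp_le_mul ?_
    have h3 := ht.WW_le s
    have h4 := mul_le_mul_of_nonneg_right hA hD
    rw [YY, XX]; nlinarith
  push Not at ha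
  have h5 : δ * DD 1 s ≤ δ * K * l ^ 3 := by nlinarith
  refine le_trans ?_ le_add_self
  by_cases hb : (Multiset.card s : ℝ) ≤ ρ * l ^ 3
  · refine le_trans (exp_le_mul ?_) le_self_add
    have h3 : 27 * σ * (Multiset.card s : ℝ) ^ 2 / l ^ 3 ≤ 27 * σ * ρ ^ 2 * l ^ 3 := by
      rw [div_le_iff₀ hl']
      have := pow_le_pow_left₀ (Nat.cast_nonneg _) hb 2
      nlinarith
    rw [YY]; linarith
  · refine le_trans (exp_le_mul ?_) le_add_self
    push Not at hb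
    have h3 : 27000 * σ * DD 1 s ≤ 27000 * σ * K * l ^ 3 := by nlinarith
    have h4 : h * ρ * l ^ 3 ≤ h * Multiset.card s := by nlinarith
    rw [YY, XX, XX]; linarith

lemma Adm.Xi_GG {t : ℕ → ℝ} (ht : Adm t) {A ν h c₂ c₃ γ L : ℝ} (hA : 125 * nm t ≤ A) (hL : 0 ≤ L)
    (hγ : 0 ≤ γ) (h2 : c₂ + PP A t ν * (L + 2) ^ 3 ≤ γ)
    (h3 : c₃ + PP A t (ν + h) * (L + 2) ^ 3 ≤ γ) (v : Pt) :
    Xi (cube v L) (GG A t ν h (-(Real.exp (ν + A) * L ^ 3)) c₂ c₃)
      ≤ ENNReal.ofReal (Real.exp (γ + 2)) := by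
  unfold GG
  rw [Xi_add _ ((Meas.const _).mul (meas_pow _)), Xi_add _ ((Meas.const _).mul (ht.meas_FF A ν)),
    Xi_const_mul _ _ (meas_pow _), Xi_const_mul _ _ (ht.meas_FF _ _),
    Xi_const_mul _ _ (ht.meas_FF _ _), Xi_cube _ _ (FF_translate A t ν v),
    Xi_cube _ _ (FF_translate A t (ν + h) v),
    Xi_pow _ _ _ (Real.exp_pos _).le (by positivity) (volume_cube v hL)]
  have key : ∀ a b, a + b ≤ γ → ENNReal.ofReal (Real.exp a) * ENNReal.ofReal (Real.exp b)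
      ≤ ENNReal.ofReal (Real.exp γ) := fun a b hab => by
    rw [← ENNReal.ofReal_mul (Real.exp_pos _).le, ← Real.exp_add]
    exact ENNReal.ofReal_le_ofReal (Real.exp_le_exp.2 hab)
  calc _ ≤ ENNReal.ofReal (Real.exp γ) + (ENNReal.ofReal (Real.exp γ)
        + ENNReal.ofReal (Real.exp γ)) := by
        refine add_le_add (key _ _ (by linarith)) (add_le_add ?_ ?_)
        · exact le_trans (mul_le_mul_right (ht.ZZ_le_PP hA ν hL) _) (key _ _ h2)
        · exact le_trans (mul_le_mul_right (ht.ZZ_le_PP hA (ν + h) hL) _) (key _ _ h3)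
    _ ≤ _ := by
        rw [← ENNReal.ofReal_add (Real.exp_pos _).le (Real.exp_pos _).le,
          ← ENNReal.ofReal_add (Real.exp_pos _).le (by positivity)]
        refine ENNReal.ofReal_le_ofReal ?_
        rw [Real.exp_add]
        have := Real.add_one_le_exp 2
        nlinarith [Real.exp_pos γ]

lemma Adm.PP_bump_le {t : ℕ → ℝ} (ht : Adm t) {A ν σ h ρ γ : ℝ} (hσ : 0 ≤ σ) (hh : 0 ≤ h)
    (hA : 250 * nm t + 27000 * σ + 1 ≤ A) (j : ℕ) (hγ : 0 ≤ γ)
    (h2 : (del t (j + 1) * Real.exp (ν + A) + 27 * σ * ρ ^ 2) * ((j + 1 : ℕ) : ℝ) ^ 3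
      + PP A t ν * (((j + 1 : ℕ) : ℝ) + 2) ^ 3 ≤ γ)
    (h3 : (del t (j + 1) * Real.exp (ν + A) + 27000 * σ * Real.exp (ν + A) - h * ρ)
      * ((j + 1 : ℕ) : ℝ) ^ 3 + PP A t (ν + h) * (((j + 1 : ℕ) : ℝ) + 2) ^ 3 ≤ γ) :
    PP A (P171.bump t j σ) ν ≤ (γ + 2) / ((j + 1 : ℕ) : ℝ) ^ 3 := by
  have hn := ht.nm_nonneg
  have hd0 := ht.del_nonneg (j + 1)
  have hd1 := ht.del_le (j + 1)
  have hl : (0:ℝ) < ((j + 1 : ℕ) : ℝ) := by positivity
  set G := GG A t ν h (-(Real.exp (ν + A) * ((j + 1 : ℕ) : ℝ) ^ 3))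
    ((del t (j + 1) * Real.exp (ν + A) + 27 * σ * ρ ^ 2) * ((j + 1 : ℕ) : ℝ) ^ 3)
    ((del t (j + 1) * Real.exp (ν + A) + 27000 * σ * Real.exp (ν + A) - h * ρ)
      * ((j + 1 : ℕ) : ℝ) ^ 3) with hG
  have hGm : Meas G := ht.meas_GG _ _ _ _ _ _
  have key : ∀ m : ℕ, lg A (P171.bump t j σ) ν (m * ((j + 1 : ℕ) : ℝ)) ≤
      ((j + 1 : ℕ) : ℝ) + ((m:ℝ) + 2) ^ 3 * (γ + 2) := by
    intro m
    refine lg_le ?_
    calc _ ≤ Xi (box (m * ((j + 1 : ℕ) : ℝ))) (fun s => ∑ i ∈ Finset.range (j + 1),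
            ∏ k ∈ TT m, G (s.filter (· ∈ cell (j + 1) i k))) := by
          refine Xi_mono (measurableSet_box _) fun s hs => ?_
          obtain ⟨i, hi, h4⟩ := ht.decouple ν hσ j m (A := A) (by linarith) hs
          refine le_trans ?_ (Finset.single_le_sum (f := fun i => ∏ k ∈ TT m,
            G (s.filter (· ∈ cell (j + 1) i k))) (fun _ _ => zero_le) (Finset.mem_range.2 hi))
          refine (ENNReal.ofReal_le_ofReal (Real.exp_le_exp.2 h4)).trans ?_
          rw [ofReal_exp_sum]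
          refine Finset.prod_le_prod' fun k _ => ?_
          exact ht.cube_bound hd0 hσ hh (by linarith) (by omega) fun x hx =>
            cell_sub (by omega) i k (Multiset.mem_filter.1 hx).2
      _ ≤ ∑ i ∈ Finset.range (j + 1),
            ENNReal.ofReal (Real.exp (((m:ℝ) + 2) ^ 3 * (γ + 2))) := by
          rw [Xi_sum _ _ fun i => Meas.prod _ fun k _ => hGm.filter (measurableSet_cell _ _ _)]
          refine Finset.sum_le_sum fun i hi => ?_
          refine (Xi_mono_set (box_sub_cells (Finset.mem_range.1 hi)) _).trans ?_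
          rw [Xi_prod (TT m) _ (measurableSet_cell _ _) (cell_disj _ _ _) (fun _ => G)
            fun _ => hGm]
          calc _ ≤ ∏ _k ∈ TT m, ENNReal.ofReal (Real.exp (γ + 2)) :=
                Finset.prod_le_prod' fun k _ => (Xi_mono_set (cell_sub (by omega) i k) _).trans
                  (ht.Xi_GG (by linarith) hl.le hγ h2 h3 _)
            _ = _ := by
                rw [← ofReal_exp_sum, Finset.sum_const, card_TT, nsmul_eq_mul]; push_cast; rfl
      _ ≤ _ := by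
          rw [Finset.sum_const, Finset.card_range, nsmul_eq_mul, Real.exp_add,
            ENNReal.ofReal_mul (Real.exp_pos _).le, ← ENNReal.ofReal_natCast]
          gcongr
          linarith [Real.add_one_le_exp ((j + 1 : ℕ) : ℝ)]
  have hA' : 125 * nm (P171.bump t j σ) ≤ A := by rw [ht.nm_bump]; linarith
  have h4 : Tendsto (fun m : ℕ => (m:ℝ) * ((j + 1 : ℕ) : ℝ)) atTop atTop :=
    tendsto_natCast_atTop_atTop.atTop_mul_const hl
  have h5 : Tendsto (fun m : ℕ => ((j + 1 : ℕ) : ℝ) / ((m:ℝ) * ((j + 1 : ℕ) : ℝ)) ^ 3 +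
      ((m:ℝ) + 2) ^ 3 / (m:ℝ) ^ 3 * ((γ + 2) / ((j + 1 : ℕ) : ℝ) ^ 3)) atTop
      (𝓝 (0 + 1 * ((γ + 2) / ((j + 1 : ℕ) : ℝ) ^ 3))) :=
    (tendsto_const_nhds.div_atTop ((tendsto_pow_atTop (by norm_num)).comp h4)).add
      (((tendsto_cube 2).comp tendsto_natCast_atTop_atTop).mul_const _)
  rw [zero_add, one_mul] at h5
  refine le_of_tendsto_of_tendsto (((ht.bump j hσ).tendsto_PP hA' ν).comp h4) h5 ?_
  filter_upwards [eventually_gt_atTop 0] with m hm
  have hm' : (0:ℝ) < m := by exact_mod_cast hm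
  simp only [Function.comp]
  refine (div_le_div_of_nonneg_right (key m) (by positivity)).trans (le_of_eq ?_)
  field_simp

end Vale.Agent.P171
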