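import Mathlib

/-! Grand canonical integrals over multiset configurations. -/

namespace Vale.Agent.P171

set_option linter.unusedSectionVars false

open MeasureTheory Set
open scoped ENNReal Nat

variable {E : Type*}

def ms {N : ℕ} (x : Fin N → E) : Multiset E := Finset.univ.val.map x

lemma ms_zero (x : Fin 0 → E) : ms x = 0 := by simp [ms]

lemma ms_cons {N : ℕ} (y : E) (x : Fin N → E) :
    ms (Fin.cons y x : Fin (N+1) → E) = y ::ₘ ms x := by
  simp only [ms]
  rw [Fin.univ_val_map, Fin.univ_val_map, List.ofFn_succ]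
  simp

lemma card_ms {N : ℕ} (x : Fin N → E) : Multiset.card (ms x) = N := by simp [ms]

lemma mem_ms {N : ℕ} {x : Fin N → E} {y : E} : y ∈ ms x ↔ ∃ i, x i = y := by simp [ms]

lemma sum_ms {N : ℕ} (x : Fin N → E) (f : E → ℝ) : ((ms x).map f).sum = ∑ i, f (x i) := by
  simp only [ms, Multiset.map_map]; rfl

lemma map_ms {N : ℕ} (x : Fin N → E) (f : E → E) : (ms x).map f = ms (fun i => f (x i)) := by
  simp only [ms, Multiset.map_map]; rfl

variable [MeasureSpace E]

def Meas (F : Multiset E → ℝ≥0∞) : Prop := ∀ N, Measurable fun x : Fin N → E => F (ms x)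

noncomputable def II (Λ : Set E) (F : Multiset E → ℝ≥0∞) (N : ℕ) : ℝ≥0∞ :=
  ∫⁻ x in Set.univ.pi (fun _ : Fin N => Λ), F (ms x)

noncomputable def Xi (Λ : Set E) (F : Multiset E → ℝ≥0∞) : ℝ≥0∞ :=
  ∑' N, ((N ! : ℝ≥0∞))⁻¹ * II Λ F N

lemma Meas.cons2 {F : Multiset E → ℝ≥0∞} (hF : Meas F) (N : ℕ) :
    Measurable fun p : E × (Fin N → E) => F (p.1 ::ₘ ms p.2) := by
  have h : Measurable fun p : E × (Fin N → E) => (Fin.cons p.1 p.2 : Fin (N+1) → E) := by
    refine measurable_pi_iff.2 fun i => ?_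
    refine Fin.cases ?_ (fun j => ?_) i
    · simpa using measurable_fst
    · simpa using! (measurable_pi_apply j).comp measurable_snd
  have := (hF (N+1)).comp h
  simpa [Function.comp_def, ms_cons] using this

lemma Meas.cons {F : Multiset E → ℝ≥0∞} (hF : Meas F) (y : E) : Meas fun s => F (y ::ₘ s) :=
  fun N => (hF.cons2 N).comp (measurable_const.prodMk measurable_id)

lemma Meas.mul {F G : Multiset E → ℝ≥0∞} (hF : Meas F) (hG : Meas G) :
    Meas fun s => F s * G s := fun N => (hF N).mul (hG N)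

lemma Meas.add {F G : Multiset E → ℝ≥0∞} (hF : Meas F) (hG : Meas G) :
    Meas fun s => F s + G s := fun N => (hF N).add (hG N)

lemma Meas.const (c : ℝ≥0∞) : Meas (E := E) fun _ => c := fun _ => measurable_const

lemma Meas.prod {ι : Type*} (T : Finset ι) {F : ι → Multiset E → ℝ≥0∞} (h : ∀ k ∈ T, Meas (F k)) :
    Meas fun s => ∏ k ∈ T, F k s := fun N => Finset.measurable_prod T fun k hk => h k hk N

lemma filter_ms {N : ℕ} (x : Fin N → E) (p : E → Prop) [DecidablePred p] (T : Finset (Fin N))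
    (hT : ∀ i, i ∈ T ↔ p (x i)) :
    (ms x).filter p = ms (fun i : Fin T.card => x (T.equivFin.symm i)) := by
  have h1 : (ms x).filter p = T.val.map x := by
    simp only [ms, Multiset.filter_map]
    congr 1
    have : T = Finset.univ.filter (fun i => p (x i)) := by ext i; simp [hT]
    rw [this]; rfl
  have h2 : (Finset.univ : Finset (Fin T.card)).val.map (fun i => (T.equivFin.symm i : Fin N))
      = T.val := by
    have h3 : (Finset.univ : Finset (Fin T.card)).val.map T.equivFin.symm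
        = (Finset.univ : Finset T).val := by
      rw [← Finset.map_univ_equiv T.equivFin.symm]; rfl
    have h4 : (Finset.univ : Finset T).val.map (fun a : T => (a : Fin N)) = T.val := by
      rw [Finset.univ_eq_attach, Finset.attach_val]; exact Multiset.attach_map_val _
    rw [← h4, ← h3, Multiset.map_map]; rfl
  rw [h1, ← h2, ms, Multiset.map_map]; rfl

open Classical in
lemma Meas.filter {F : Multiset E → ℝ≥0∞} (hF : Meas F) {A : Set E} (hA : MeasurableSet A) :
    Meas fun s => F (s.filter (· ∈ A)) := by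
  intro N
  have key : (fun x : Fin N → E => F ((ms x).filter (· ∈ A))) = fun x =>
      ∑ T : Finset (Fin N), Set.indicator {x : Fin N → E | ∀ i, i ∈ T ↔ x i ∈ A}
        (fun x => F (ms (fun i : Fin T.card => x (T.equivFin.symm i)))) x := by
    funext x
    rw [Finset.sum_eq_single (Finset.univ.filter fun i => x i ∈ A)]
    · rw [Set.indicator_of_mem (by intro i; simp),
        filter_ms x _ (Finset.univ.filter fun i => x i ∈ A) (by intro i; simp)]
    · intro T _ hT
      refine Set.indicator_of_notMem (fun h => hT ?_) _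
      ext i; simpa using h i
    · simp
  rw [key]
  refine Finset.measurable_sum _ fun T _ => Measurable.indicator ?_ ?_
  · exact (hF _).comp (measurable_pi_iff.2 fun i => measurable_pi_apply _)
  · have : {x : Fin N → E | ∀ i, i ∈ T ↔ x i ∈ A} =
        Set.univ.pi (fun i => if i ∈ T then A else Aᶜ) := by
      ext x
      simp only [Set.mem_ofPred_eq, Set.mem_pi, Set.mem_univ, forall_const]
      refine forall_congr' fun i => ?_
      by_cases h : i ∈ T <;> simp [h]
    rw [this]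
    exact MeasurableSet.univ_pi fun i => by
      by_cases h : i ∈ T
      · simpa [h] using hA
      · simpa [h] using hA.compl

variable [SigmaFinite (volume : Measure E)]

lemma II_eq (Λ : Set E) (F : Multiset E → ℝ≥0∞) (N : ℕ) :
    II Λ F N = ∫⁻ x, F (ms x) ∂(Measure.pi fun _ : Fin N => (volume : Measure E).restrict Λ) := by
  rw [II, volume_pi, Measure.restrict_pi_pi]

lemma II_zero (Λ : Set E) (F : Multiset E → ℝ≥0∞) : II Λ F 0 = F 0 := by
  rw [II_eq]; simp [ms_zero]

lemma II_succ (Λ : Set E) {F : Multiset E → ℝ≥0∞} (hF : Meas F) (N : ℕ) :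
    II Λ F (N+1) = ∫⁻ y in Λ, II Λ (fun s => F (y ::ₘ s)) N := by
  simp only [II_eq]
  have h := (measurePreserving_piFinSuccAbove
    (fun _ : Fin (N+1) => (volume : Measure E).restrict Λ) 0)
  rw [← lintegral_prod _ (hF.cons2 N).aemeasurable]
  rw [h.lintegral_map_equiv (fun p : E × (Fin N → E) => F (p.1 ::ₘ ms p.2))]
  refine lintegral_congr fun x => ?_
  conv_lhs => rw [← Fin.cons_self_tail x, ms_cons]
  rfl

lemma measurable_II (Λ : Set E) {F : Multiset E → ℝ≥0∞} (hF : Meas F) (N : ℕ) :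
    Measurable fun y => II Λ (fun s => F (y ::ₘ s)) N := by
  simp only [II_eq]
  exact (hF.cons2 N).lintegral_prod_right'

lemma II_union {A B : Set E} (hA : MeasurableSet A) (hB : MeasurableSet B) (hAB : Disjoint A B)
    (N : ℕ) : ∀ {F G : Multiset E → ℝ≥0∞}, Meas F → Meas G →
      (∀ y ∈ B, ∀ s, F (y ::ₘ s) = F s) → (∀ y ∈ A, ∀ s, G (y ::ₘ s) = G s) →
      II (A ∪ B) (fun s => F s * G s) N =
        ∑ ij ∈ Finset.HasAntidiagonal.antidiagonal N, (N.choose ij.1 : ℝ≥0∞) * (II A F ij.1 * II B G ij.2) := by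
  induction N with
  | zero => intro F G _ _ _ _; simp [II_zero]
  | succ N ih =>
    intro F G hF hG hFB hGA
    rw [II_succ _ (hF.mul hG), lintegral_union hB hAB,
      Finset.sum_antidiagonal_choose_succ_mul (fun i j => II A F i * II B G j), add_comm]
    congr 1
    · rw [setLIntegral_congr_fun hB (g := fun y => ∑ ij ∈ Finset.HasAntidiagonal.antidiagonal N,
        (N.choose ij.1 : ℝ≥0∞) * (II A F ij.1 * II B (fun s => G (y ::ₘ s)) ij.2))]
      · rw [lintegral_finsetSum]
        · refine Finset.sum_congr rfl fun ij _ => ?_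
          rw [lintegral_const_mul, lintegral_const_mul, II_succ _ hG]
          · exact measurable_II _ hG _
          · exact (measurable_II _ hG _).const_mul _
        · intro ij _
          exact ((measurable_II _ hG _).const_mul _).const_mul _
      · intro y hy
        simp only [hFB y hy]
        exact ih hF (hG.cons y) hFB (fun z hz s => by rw [Multiset.cons_swap, hGA z hz])
    · rw [setLIntegral_congr_fun hA (g := fun y => ∑ ij ∈ Finset.HasAntidiagonal.antidiagonal N,
        (N.choose ij.1 : ℝ≥0∞) * (II A (fun s => F (y ::ₘ s)) ij.1 * II B G ij.2))]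
      · rw [lintegral_finsetSum]
        · refine Finset.sum_congr rfl fun ij hij => ?_
          rw [lintegral_const_mul, lintegral_mul_const, II_succ _ hF,
            Nat.choose_symm_of_eq_add (Finset.HasAntidiagonal.mem_antidiagonal.1 hij).symm]
          · exact measurable_II _ hF _
          · exact (measurable_II _ hF _).mul_const _
        · intro ij _
          exact ((measurable_II _ hF _).mul_const _).const_mul _
      · intro y hy
        simp only [hGA y hy]
        exact ih (hF.cons y) hG (fun z hz s => by rw [Multiset.cons_swap, hFB z hz]) hGA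

lemma cauchy (f g : ℕ → ℝ≥0∞) : (∑' n, f n) * ∑' n, g n =
    ∑' n, ∑ kl ∈ Finset.HasAntidiagonal.antidiagonal n, f kl.1 * g kl.2 := by
  conv_rhs => congr; ext; rw [← Finset.sum_finset_coe, ← tsum_fintype (L := .unconditional _)]
  have : (∑' n, f n) * ∑' n, g n = ∑' p : ℕ × ℕ, f p.1 * g p.2 := by
    rw [ENNReal.tsum_prod (f := fun a b => f a * g b), ← ENNReal.tsum_mul_right]
    exact tsum_congr fun a => ENNReal.tsum_mul_left.symm
  rw [this, ← Finset.HasAntidiagonal.sigmaAntidiagonalEquivProd.tsum_eq, ENNReal.tsum_sigma']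
  rfl

lemma Xi_union {A B : Set E} (hA : MeasurableSet A) (hB : MeasurableSet B) (hAB : Disjoint A B)
    {F G : Multiset E → ℝ≥0∞} (hF : Meas F) (hG : Meas G)
    (hFB : ∀ y ∈ B, ∀ s, F (y ::ₘ s) = F s) (hGA : ∀ y ∈ A, ∀ s, G (y ::ₘ s) = G s) :
    Xi (A ∪ B) (fun s => F s * G s) = Xi A F * Xi B G := by
  simp only [Xi]
  rw [cauchy]
  refine tsum_congr fun N => ?_
  rw [II_union hA hB hAB N hF hG hFB hGA, Finset.mul_sum]
  refine Finset.sum_congr rfl fun ij hij => ?_
  have h := Finset.HasAntidiagonal.mem_antidiagonal.1 hij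
  have h1 : ((N ! : ℕ) : ℝ≥0∞) = N.choose ij.1 * (ij.1 ! : ℕ) * (ij.2 ! : ℕ) := by
    rw [← h, ← Nat.add_choose_mul_factorial_mul_factorial, Nat.choose_symm_add]; push_cast; rfl
  have h2 : (N.choose ij.1 : ℝ≥0∞) ≠ 0 := by
    exact_mod_cast (Nat.choose_pos (by omega)).ne'
  have h3 : (N.choose ij.1 : ℝ≥0∞)⁻¹ * N.choose ij.1 = 1 :=
    ENNReal.inv_mul_cancel h2 (by simp)
  rw [h1, ENNReal.mul_inv (by simp) (by simp [ENNReal.mul_eq_top]),
    ENNReal.mul_inv (by simp) (by simp)]
  calc _ = ((N.choose ij.1 : ℝ≥0∞)⁻¹ * N.choose ij.1) * (((ij.1 ! : ℕ) : ℝ≥0∞)⁻¹ * II A F ij.1 *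
      (((ij.2 ! : ℕ) : ℝ≥0∞)⁻¹ * II B G ij.2)) := by ring
    _ = _ := by rw [h3, one_mul]

lemma II_mono {Λ : Set E} (hΛ : MeasurableSet Λ) {F G : Multiset E → ℝ≥0∞} (N : ℕ)
    (h : ∀ s, Multiset.card s = N → (∀ x ∈ s, x ∈ Λ) → F s ≤ G s) : II Λ F N ≤ II Λ G N := by
  refine setLIntegral_mono' (MeasurableSet.univ_pi fun _ => hΛ) fun x hx => h _ (card_ms x) ?_
  intro y hy
  obtain ⟨i, rfl⟩ := mem_ms.1 hy
  exact hx i (Set.mem_univ _)

lemma Xi_mono {Λ : Set E} (hΛ : MeasurableSet Λ) {F G : Multiset E → ℝ≥0∞}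
    (h : ∀ s, (∀ x ∈ s, x ∈ Λ) → F s ≤ G s) : Xi Λ F ≤ Xi Λ G :=
  ENNReal.tsum_le_tsum fun N => by
    gcongr; exact II_mono hΛ N fun s _ hs => h s hs

lemma Xi_congr {Λ : Set E} (hΛ : MeasurableSet Λ) {F G : Multiset E → ℝ≥0∞}
    (h : ∀ s, (∀ x ∈ s, x ∈ Λ) → F s = G s) : Xi Λ F = Xi Λ G :=
  le_antisymm (Xi_mono hΛ fun s hs => (h s hs).le) (Xi_mono hΛ fun s hs => (h s hs).ge)

lemma Xi_mono_set {Λ Λ' : Set E} (h : Λ ⊆ Λ') (F : Multiset E → ℝ≥0∞) : Xi Λ F ≤ Xi Λ' F :=
  ENNReal.tsum_le_tsum fun N => by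
    gcongr
    exact lintegral_mono_set (Set.pi_mono fun _ _ => h)

lemma Xi_add (Λ : Set E) {F : Multiset E → ℝ≥0∞} (hF : Meas F) (G : Multiset E → ℝ≥0∞) :
    Xi Λ (fun s => F s + G s) = Xi Λ F + Xi Λ G := by
  simp only [Xi, II, ← ENNReal.tsum_add]
  refine tsum_congr fun N => ?_
  rw [lintegral_add_left (hF N), mul_add]

lemma II_const_mul (Λ : Set E) (c : ℝ≥0∞) {F : Multiset E → ℝ≥0∞} (hF : Meas F) (N : ℕ) :
    II Λ (fun s => c * F s) N = c * II Λ F N := by
  simp only [II]; rw [lintegral_const_mul _ (hF N)]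

lemma Xi_const_mul (Λ : Set E) (c : ℝ≥0∞) {F : Multiset E → ℝ≥0∞} (hF : Meas F) :
    Xi Λ (fun s => c * F s) = c * Xi Λ F := by
  simp only [Xi, II_const_mul _ _ hF, ← ENNReal.tsum_mul_left]
  refine tsum_congr fun N => by ring

lemma Xi_sum {ι : Type*} (Λ : Set E) (T : Finset ι) {F : ι → Multiset E → ℝ≥0∞}
    (hF : ∀ k, Meas (F k)) : Xi Λ (fun s => ∑ k ∈ T, F k s) = ∑ k ∈ T, Xi Λ (F k) := by
  classical
  induction T using Finset.induction_on with
  | empty => simp [Xi, II]
  | insert a T ha ih => simp only [Finset.sum_insert ha]; rw [Xi_add _ (hF a), ih]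

lemma le_Xi_zero (Λ : Set E) (F : Multiset E → ℝ≥0∞) : F 0 ≤ Xi Λ F := by
  have := ENNReal.le_tsum (f := fun N => ((N ! : ℝ≥0∞))⁻¹ * II Λ F N) 0
  simpa [II_zero, Xi] using this

lemma le_Xi_one (Λ : Set E) {F : Multiset E → ℝ≥0∞} (hF : Meas F) :
    ∫⁻ y in Λ, F {y} ≤ Xi Λ F := by
  have := ENNReal.le_tsum (f := fun N => ((N ! : ℝ≥0∞))⁻¹ * II Λ F N) (0 + 1)
  rw [II_succ _ hF] at this
  simpa [II_zero, Xi] using this

lemma Xi_empty (F : Multiset E → ℝ≥0∞) (hF : Meas F) : Xi ∅ F = F 0 := by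
  rw [Xi, tsum_eq_single 0]
  · simp [II_zero]
  · intro N hN
    obtain ⟨M, rfl⟩ := Nat.exists_eq_succ_of_ne_zero hN
    rw [II_succ _ hF]; simp

open Classical in
lemma Xi_prod {ι : Type*} (T : Finset ι) (c : ι → Set E) (hc : ∀ k, MeasurableSet (c k))
    (hd : ∀ k ∈ T, ∀ l ∈ T, k ≠ l → Disjoint (c k) (c l)) (F : ι → Multiset E → ℝ≥0∞)
    (hF : ∀ k, Meas (F k)) :
    Xi (⋃ k ∈ T, c k) (fun s => ∏ k ∈ T, F k (s.filter (· ∈ c k))) = ∏ k ∈ T, Xi (c k) (F k) := by
  induction T using Finset.induction_on with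
  | empty => simp [Xi_empty _ (Meas.const 1)]
  | insert a T ha ih =>
    have hdis : Disjoint (c a) (⋃ k ∈ T, c k) := by
      simp only [Set.disjoint_iUnion_right]
      intro k hk
      exact hd a (Finset.mem_insert_self _ _) k (Finset.mem_insert_of_mem hk)
        (fun h => ha (h ▸ hk))
    simp only [Finset.prod_insert ha, Finset.set_biUnion_insert]
    rw [Xi_union (hc a) (Finset.measurableSet_biUnion T fun k _ => hc k) hdis
      ((hF a).filter (hc a)) (Meas.prod T fun k _ => (hF k).filter (hc k)),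
      ih (fun k hk l hl => hd k (Finset.mem_insert_of_mem hk) l (Finset.mem_insert_of_mem hl))]
    · congr 1
      refine Xi_congr (hc a) fun s hs => ?_
      rw [Multiset.filter_eq_self.2 hs]
    · intro y hy s
      rw [Multiset.filter_cons_of_neg _ (Set.disjoint_right.1 hdis hy)]
    · intro y hy s
      refine Finset.prod_congr rfl fun k hk => ?_
      rw [Multiset.filter_cons_of_neg]
      intro hyk
      exact Set.disjoint_left.1 hdis hy (Set.mem_biUnion hk hyk)

lemma Xi_pow (Λ : Set E) (w v : ℝ) (hw : 0 ≤ w) (hv : 0 ≤ v) (hΛ : volume Λ = ENNReal.ofReal v) :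
    Xi Λ (fun s => ENNReal.ofReal w ^ Multiset.card s) = ENNReal.ofReal (Real.exp (w * v)) := by
  have h1 : ∀ N : ℕ, ((N ! : ℝ≥0∞))⁻¹ * II Λ (fun s => ENNReal.ofReal w ^ Multiset.card s) N
      = ENNReal.ofReal ((w * v) ^ N / N !) := by
    intro N
    simp only [II, card_ms, lintegral_const, Measure.restrict_apply MeasurableSet.univ,
      Set.univ_inter, volume_pi_pi, Finset.prod_const, Finset.card_univ, Fintype.card_fin, hΛ]
    rw [← mul_pow, ← ENNReal.ofReal_mul hw, ← ENNReal.ofReal_pow (by positivity),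
      ENNReal.ofReal_div_of_pos (by positivity), ENNReal.ofReal_natCast, ENNReal.div_eq_inv_mul]
  simp only [Xi, h1]
  rw [← ENNReal.ofReal_tsum_of_nonneg (fun N => by positivity) (Real.summable_pow_div_factorial _),
    Real.exp_eq_exp_ℝ, NormedSpace.exp_eq_tsum_div]

end Vale.Agent.P171
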